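import Vale.Agent.P069.Defs

namespace Vale.Agent.P069

open Filter Topology Set

variable {X : Type*} [NormedAddCommGroup X] [NormedSpace ℝ X]

theorem exists_near_of_weakly_null (x : ℕ → X)
    (hx : ∀ φ : StrongDual ℝ X, Tendsto (fun m => φ (x m)) atTop (𝓝 0))
    (F : Submodule ℝ X) (hF : F ∈ cof X) (θ : ℝ) (hθ : 0 < θ) :
    ∃ m, ∃ y ∈ F, ‖x m - y‖ < θ := by
  obtain ⟨hcl, hfd⟩ := hF
  have : IsClosed (F : Set X) := hcl
  have : FiniteDimensional ℝ (X ⧸ F) := hfd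
  let b := Module.finBasis ℝ (X ⧸ F)
  have hcoord : ∀ i, Tendsto (fun m => b.coord i (F.mkQL (x m))) atTop (𝓝 0) := by
    intro i
    let ψ : StrongDual ℝ (X ⧸ F) := LinearMap.toContinuousLinearMap (b.coord i)
    exact hx (ψ.comp F.mkQL)
  have hsum : Tendsto (fun m => ∑ i, b.coord i (F.mkQL (x m)) • b i) atTop
      (𝓝 (∑ i, (0 : ℝ) • b i)) := by
    apply tendsto_finsetSum
    intro i _
    exact (hcoord i).smul_const (b i)
  have hlim : Tendsto (fun m => F.mkQL (x m)) atTop (𝓝 0) := by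
    have h1 : (fun m => ∑ i, b.coord i (F.mkQL (x m)) • b i) = fun m => F.mkQL (x m) := by
      funext m
      exact b.sum_repr (F.mkQL (x m))
    rw [h1] at hsum
    simpa using hsum
  have hnorm : Tendsto (fun m => ‖F.mkQL (x m)‖) atTop (𝓝 0) := by
    simpa using hlim.norm
  obtain ⟨m, hm⟩ := (hnorm.eventually (gt_mem_nhds (half_pos hθ))).exists
  obtain ⟨u, hu, hun⟩ := Submodule.Quotient.norm_mk_lt (F.mkQL (x m)) (half_pos hθ)
  refine ⟨m, x m - u, ?_, ?_⟩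
  · rw [← Submodule.Quotient.mk_eq_zero, Submodule.Quotient.mk_sub, hu]
    simp
  · have : x m - (x m - u) = u := by abel
    rw [this]
    linarith

theorem auc_step (N : Seminorm ℝ X) (t₀ δ : ℝ) (ht₀ : 0 < t₀) (hδ : 0 < δ)
    (h : ∀ x : X, N x = 1 → ∃ F ∈ cof X, ∀ y ∈ F, N y = 1 → 1 + δ ≤ N (x + t₀ • y))
    (z : X) (hz : 0 < N z) :
    ∃ F ∈ cof X, ∀ y ∈ F, t₀ * N z ≤ N y → (1 + δ) * N z ≤ N (z + y) := by
  have hx1 : N ((N z)⁻¹ • z) = 1 := by
    rw [map_smul_eq_mul, Real.norm_eq_abs, abs_of_pos (inv_pos.2 hz), inv_mul_cancel₀ hz.ne']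
  obtain ⟨F, hF, hFy⟩ := h _ hx1
  refine ⟨F, hF, fun y hy hNy => ?_⟩
  have hy0 : 0 < N y := lt_of_lt_of_le (mul_pos ht₀ hz) hNy
  have hy1 : N ((N y)⁻¹ • y) = 1 := by
    rw [map_smul_eq_mul, Real.norm_eq_abs, abs_of_pos (inv_pos.2 hy0), inv_mul_cancel₀ hy0.ne']
  have h1 := hFy _ (F.smul_mem _ hy) hy1
  set lam : ℝ := t₀ * N z / N y with hlam
  have hlam0 : 0 < lam := div_pos (mul_pos ht₀ hz) hy0
  have hlam1 : lam ≤ 1 := (div_le_one hy0).2 hNy
  have hconv : (N z)⁻¹ • z + t₀ • ((N y)⁻¹ • y)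
      = (1 - lam) • ((N z)⁻¹ • z) + lam • ((N z)⁻¹ • (z + y)) := by
    have e1 : t₀ * (N y)⁻¹ = lam * (N z)⁻¹ := by
      rw [hlam]; field_simp
    rw [smul_smul t₀, e1]
    module
  have hv : N ((N z)⁻¹ • (z + y)) = (N z)⁻¹ * N (z + y) := by
    rw [map_smul_eq_mul, Real.norm_eq_abs, abs_of_pos (inv_pos.2 hz)]
  have h2 : N ((N z)⁻¹ • z + t₀ • ((N y)⁻¹ • y)) ≤ (1 - lam) * 1 + lam * ((N z)⁻¹ * N (z + y)) := by
    rw [hconv]
    refine (map_add_le_add N _ _).trans ?_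
    rw [map_smul_eq_mul N (1 - lam), map_smul_eq_mul N lam, hx1, hv, Real.norm_eq_abs,
      Real.norm_eq_abs, abs_of_nonneg (by linarith : (0:ℝ) ≤ 1 - lam), abs_of_pos hlam0]
  have h3 : δ ≤ lam * ((N z)⁻¹ * N (z + y) - 1) := by nlinarith
  have h4 : δ ≤ (N z)⁻¹ * N (z + y) - 1 := by
    have hpos : 0 ≤ (N z)⁻¹ * N (z + y) - 1 := by
      by_contra hneg
      push Not at hneg
      have : lam * ((N z)⁻¹ * N (z + y) - 1) < 0 := mul_neg_of_pos_of_neg hlam0 hneg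
      linarith
    calc δ ≤ lam * ((N z)⁻¹ * N (z + y) - 1) := h3
      _ ≤ 1 * ((N z)⁻¹ * N (z + y) - 1) := mul_le_mul_of_nonneg_right hlam1 hpos
      _ = _ := one_mul _
  have h5 : 1 + δ ≤ (N z)⁻¹ * N (z + y) := by linarith
  calc (1 + δ) * N z ≤ ((N z)⁻¹ * N (z + y)) * N z := mul_le_mul_of_nonneg_right h5 hz.le
    _ = N (z + y) := by field_simp

theorem no_equiv_AUC_of_trees (C : ℝ)
    (hT : ∀ n : ℕ, ∃ z : List ℕ → X, z [] = 0 ∧ (∀ l, l.length ≤ n → ‖z l‖ ≤ C) ∧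
      (∀ l m, 1 ≤ ‖z (m :: l) - z l‖) ∧
      (∀ l (φ : StrongDual ℝ X), Tendsto (fun m => φ (z (m :: l) - z l)) atTop (𝓝 0))) :
    ¬ ∃ N : Seminorm ℝ X, IsEquivNorm N ∧ IsAUC N := by
  rintro ⟨N, ⟨c, C', hc, hC', hN⟩, hAUC⟩
  set C₁ : ℝ := max C 1 with hC₁
  have hC₁1 : 1 ≤ C₁ := le_max_right _ _
  have hC₁0 : 0 < C₁ := by linarith
  set t₀ : ℝ := c / (2 * C' * C₁) with ht₀
  have ht₀0 : 0 < t₀ := by positivity
  obtain ⟨δ, hδ, hstep⟩ := hAUC.exists_delta ht₀0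
  set θ : ℝ := min (c * δ / (2 * C')) (c / (2 * C')) with hθ
  have hθ0 : 0 < θ := by
    apply lt_min <;> positivity
  have hθ1 : C' * θ ≤ c * δ / 2 := by
    have : θ ≤ c * δ / (2 * C') := min_le_left _ _
    calc C' * θ ≤ C' * (c * δ / (2 * C')) := mul_le_mul_of_nonneg_left this hC'.le
      _ = c * δ / 2 := by field_simp
  have hθ2 : C' * θ ≤ c / 2 := by
    have : θ ≤ c / (2 * C') := min_le_right _ _
    calc C' * θ ≤ C' * (c / (2 * C')) := mul_le_mul_of_nonneg_left this hC'.le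
      _ = c / 2 := by field_simp
  -- choose n large
  obtain ⟨n, hn⟩ : ∃ n : ℕ, C' * C₁ < c * (1 + δ / 2) ^ n := by
    have h1 : (1 : ℝ) < 1 + δ / 2 := by linarith
    obtain ⟨n, hn⟩ := pow_unbounded_of_one_lt (C' * C₁ / c) h1
    refine ⟨n, ?_⟩
    rw [div_lt_iff₀ hc] at hn
    linarith
  obtain ⟨z, hz0, hzC, hz1, hzw⟩ := hT (n + 1)
  have key : ∀ k : ℕ, k ≤ n → ∃ l : List ℕ, l.length = k + 1 ∧ c * (1 + δ / 2) ^ k ≤ N (z l) := by
    intro k
    induction k with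
    | zero =>
      intro _
      refine ⟨[0], rfl, ?_⟩
      have h1 := hz1 [] 0
      rw [hz0, sub_zero] at h1
      have h2 := (hN (z [0])).1
      simp only [pow_zero, mul_one]
      nlinarith
    | succ k ih =>
      intro hk
      obtain ⟨l, hl, hNl⟩ := ih (by omega)
      have hpow : (1 : ℝ) ≤ (1 + δ / 2) ^ k := one_le_pow₀ (by linarith)
      have hNlc : c ≤ N (z l) := by nlinarith
      have hNl0 : 0 < N (z l) := by linarith
      have hNlC : N (z l) ≤ C' * C₁ := by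
        have h1 := (hN (z l)).2
        have h2 : ‖z l‖ ≤ C₁ := (hzC l (by omega)).trans (le_max_left _ _)
        nlinarith
      obtain ⟨F, hF, hFy⟩ := auc_step N t₀ δ ht₀0 hδ hstep (z l) hNl0
      obtain ⟨m, y, hyF, hy⟩ := exists_near_of_weakly_null (fun m => z (m :: l) - z l)
        (fun φ => hzw l φ) F hF θ hθ0
      have hNd : N (z (m :: l) - z l - y) ≤ C' * θ := by
        have h1 := (hN (z (m :: l) - z l - y)).2
        nlinarith
      have hNx : c ≤ N (z (m :: l) - z l) := by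
        have h1 := (hN (z (m :: l) - z l)).1
        have h2 := hz1 l m
        nlinarith
      have hNy : c / 2 ≤ N y := by
        have h1 : N (z (m :: l) - z l) ≤ N (z (m :: l) - z l - y) + N y := by
          have := map_add_le_add N (z (m :: l) - z l - y) y
          simpa using this
        linarith
      have ht : t₀ * N (z l) ≤ N y := by
        have h1 : t₀ * N (z l) ≤ t₀ * (C' * C₁) := mul_le_mul_of_nonneg_left hNlC ht₀0.le
        have h2 : t₀ * (C' * C₁) = c / 2 := by rw [ht₀]; field_simp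
        linarith
      have h6 := hFy y hyF ht
      have h7 : N (z l + y) ≤ N (z (m :: l)) + N (z (m :: l) - z l - y) := by
        have h8 : z l + y = z (m :: l) - (z (m :: l) - z l - y) := by abel
        rw [h8]
        exact map_sub_le_add N _ _
      refine ⟨m :: l, by simp [hl], ?_⟩
      have h9 : c * (1 + δ / 2) ^ (k + 1) = (c * (1 + δ / 2) ^ k) * (1 + δ / 2) := by ring
      rw [h9]
      nlinarith
  obtain ⟨l, hl, hNl⟩ := key n le_rfl
  have h1 := (hN (z l)).2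
  have h2 : ‖z l‖ ≤ C₁ := (hzC l (by omega)).trans (le_max_left _ _)
  nlinarith

end Vale.Agent.P069
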