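import Vale.Agent.P069.Space
import Vale.Agent.P069.NoAUC

namespace Vale.Agent.P069

open Filter Topology

/-- the `ℓ₂` norm is dominated by the James tree norm -/
theorem sum_sq_le_norm_sq (g : JT) (s : Finset Nd) : ∑ a ∈ s, (toFs g a) ^ 2 ≤ ‖g‖ ^ 2 :=
  (JTBound_norm g).sum_sq_le s

theorem abs_apply_le_norm (g : JT) (a : Nd) : |toFs g a| ≤ ‖g‖ := by
  have := sum_sq_le_norm_sq g {a}
  simp only [Finset.sum_singleton] at this
  exact abs_le_of_sq_le_sq this (norm_nonneg _)

/-- coordinate functional -/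
noncomputable def coordF (a : Nd) : StrongDual ℝ JT :=
  LinearMap.mkContinuous
    ((Finsupp.lapply a : (Nd →₀ ℝ) →ₗ[ℝ] ℝ).comp toFs.toLinearMap) 1
    (fun g => by simpa using abs_apply_le_norm g a)

@[simp] theorem coordF_apply (a : Nd) (g : JT) : coordF a g = toFs g a := rfl

/-- evaluation of the potential at a vertex -/
noncomputable def potF (n : ℕ) : List ℕ → StrongDual ℝ JT
  | [] => 0
  | m :: l => coordF (n, m, l) + potF n l

theorem potF_apply (n : ℕ) (l : List ℕ) (g : JT) : potF n l g = pot (toFs g) n l := by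
  induction l with
  | nil => rfl
  | cons m l ih =>
    simp only [potF, add_apply, coordF_apply, ih, pot_cons]

theorem isFam_unit (n : ℕ) {b q : List ℕ} (h1 : b <:+ q) (h2 : q.length ≤ b.length + (n + 1)) :
    IsFam (ι := Unit) (fun _ => n) (fun _ => b) (fun _ => q) where
  suff _ := h1
  adm _ := h2
  disj i j hij := absurd (Subsingleton.elim i j) hij

theorem norm_potF_le (n : ℕ) (l : List ℕ) (h : l.length ≤ n + 1) : ‖potF n l‖ ≤ 1 := by
  apply ContinuousLinearMap.opNorm_le_bound _ zero_le_one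
  intro g
  rw [potF_apply, one_mul, Real.norm_eq_abs]
  have := JTBound_norm g Unit _ _ _ (isFam_unit n (List.nil_suffix (l := l)) (by simpa using h))
  simp only [Finset.univ_unique, pot_nil, sub_zero, Finset.sum_const, Finset.card_singleton,
    one_smul] at this
  exact abs_le_of_sq_le_sq this (norm_nonneg _)

theorem norm_single_le (a : Nd) : ‖ofFs (Finsupp.single a 1)‖ ≤ 1 := by
  apply norm_ofFs_le zero_le_one
  classical
  intro ι _ n b q hF
  have e : ∀ i, (pot (Finsupp.single a (1 : ℝ)) (n i) (q i)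
      - pot (Finsupp.single a (1 : ℝ)) (n i) (b i)) ^ 2
      = if InSeg a (n i) (b i) (q i) then (1 : ℝ) else 0 := by
    intro i
    rw [pot_single_sub a 1 (n i) (hF.suff i)]
    split_ifs <;> simp
  simp only [e, one_pow]
  exact hF.sum_inSeg_le a

theorem one_le_norm_coordF (a : Nd) : 1 ≤ ‖coordF a‖ := by
  have h1 := (coordF a).le_opNorm (ofFs (Finsupp.single a 1))
  have h2 : coordF a (ofFs (Finsupp.single a 1)) = 1 := by
    simp
  rw [h2] at h1
  have h3 := norm_single_le a
  have h4 : ‖coordF a‖ * ‖ofFs (Finsupp.single a 1)‖ ≤ ‖coordF a‖ * 1 := by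
    gcongr
  simp only [norm_one, mul_one] at h1 h4
  linarith

theorem norm_sum_coordF_le (s : Finset Nd) (c : Nd → ℝ) :
    ‖∑ a ∈ s, c a • coordF a‖ ≤ Real.sqrt (∑ a ∈ s, c a ^ 2) := by
  apply ContinuousLinearMap.opNorm_le_bound _ (Real.sqrt_nonneg _)
  intro g
  have e : (∑ a ∈ s, c a • coordF a) g = ∑ a ∈ s, c a * toFs g a := by
    simp
  rw [e, Real.norm_eq_abs]
  have cs := Finset.sum_mul_sq_le_sq_mul_sq s c (fun a => toFs g a)
  have h2 := sum_sq_le_norm_sq g s
  have h3 : (∑ a ∈ s, c a * toFs g a) ^ 2 ≤ (Real.sqrt (∑ a ∈ s, c a ^ 2) * ‖g‖) ^ 2 := by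
    rw [mul_pow, Real.sq_sqrt (Finset.sum_nonneg fun a _ => sq_nonneg _)]
    exact cs.trans (mul_le_mul_of_nonneg_left h2 (Finset.sum_nonneg fun a _ => sq_nonneg _))
  exact abs_le_of_sq_le_sq h3 (by positivity)

theorem sum_sq_apply_coordF_le (Φ : StrongDual ℝ (StrongDual ℝ JT)) (s : Finset Nd) :
    ∑ a ∈ s, (Φ (coordF a)) ^ 2 ≤ ‖Φ‖ ^ 2 := by
  set S := ∑ a ∈ s, (Φ (coordF a)) ^ 2 with hS
  have hS0 : 0 ≤ S := Finset.sum_nonneg fun a _ => sq_nonneg _
  have h1 := Φ.le_opNorm (∑ a ∈ s, Φ (coordF a) • coordF a)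
  have h2 : Φ (∑ a ∈ s, Φ (coordF a) • coordF a) = S := by
    rw [map_sum]
    exact Finset.sum_congr rfl fun a _ => by rw [map_smul, smul_eq_mul, sq]
  have h3 := norm_sum_coordF_le s (fun a => Φ (coordF a))
  rw [h2, Real.norm_eq_abs, abs_of_nonneg hS0] at h1
  have h4 : S ≤ ‖Φ‖ * Real.sqrt S := h1.trans (by gcongr)
  have h5 : Real.sqrt S ≤ ‖Φ‖ := by
    by_cases hz : Real.sqrt S = 0
    · rw [hz]; exact norm_nonneg Φ
    · have hpos : 0 < Real.sqrt S := lt_of_le_of_ne (Real.sqrt_nonneg _) (Ne.symm hz)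
      have : Real.sqrt S * Real.sqrt S ≤ ‖Φ‖ * Real.sqrt S := by
        rw [Real.mul_self_sqrt hS0]; exact h4
      exact le_of_mul_le_mul_right this hpos
  calc S = Real.sqrt S ^ 2 := (Real.sq_sqrt hS0).symm
    _ ≤ ‖Φ‖ ^ 2 := by gcongr

theorem tendsto_apply_coordF (Φ : StrongDual ℝ (StrongDual ℝ JT)) (n : ℕ) (l : List ℕ) :
    Tendsto (fun m => Φ (coordF (n, m, l))) atTop (𝓝 0) := by
  have hsum : Summable fun m : ℕ => (Φ (coordF (n, m, l))) ^ 2 := by
    apply summable_of_sum_le (c := ‖Φ‖ ^ 2) (fun m => sq_nonneg _)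
    intro u
    have hinj : Function.Injective fun m : ℕ => ((n, m, l) : Nd) := by
      intro m m' h
      simpa using h
    have := sum_sq_apply_coordF_le Φ (u.image fun m : ℕ => ((n, m, l) : Nd))
    rwa [Finset.sum_image (fun x _ y _ h => hinj h)] at this
  have h0 := hsum.tendsto_atTop_zero
  have h1 : Tendsto (fun m => Real.sqrt ((Φ (coordF (n, m, l))) ^ 2)) atTop (𝓝 0) := by
    have := (Real.continuous_sqrt.tendsto 0).comp h0
    rw [Real.sqrt_zero] at this
    exact this
  simp only [Real.sqrt_sq_eq_abs] at h1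
  exact (tendsto_zero_iff_abs_tendsto_zero _).mpr h1

/-- on the trees of index at most `M` the James tree norm is dominated by the `ℓ₂` norm -/
theorem norm_le_of_index_le (g : JT) (M : ℕ) (hM : ∀ a, toFs g a ≠ 0 → a.1 ≤ M) :
    ‖g‖ ^ 2 ≤ (M + 1) * ∑ a ∈ (toFs g).support, (toFs g a) ^ 2 := by
  have h1 := JTBound_of_index_le (toFs g) M (fun a ha => hM a (Finsupp.mem_support_iff.mp ha))
  have h2 := norm_le_of_JTBound (Real.sqrt_nonneg _) h1
  have hnn : (0 : ℝ) ≤ (M + 1) * ∑ a ∈ (toFs g).support, (toFs g a) ^ 2 := by positivity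
  calc ‖g‖ ^ 2 ≤ Real.sqrt ((M + 1) * ∑ a ∈ (toFs g).support, (toFs g a) ^ 2) ^ 2 := by gcongr
    _ = _ := Real.sq_sqrt hnn

theorem apply_eq_sum (x : StrongDual ℝ JT) (g : JT) :
    x g = ∑ a ∈ (toFs g).support, toFs g a * x (ofFs (Finsupp.single a 1)) := by
  have h0 : g = ∑ a ∈ (toFs g).support, toFs g a • ofFs (Finsupp.single a 1) := by
    apply toFs.injective
    rw [map_sum]
    conv_lhs => rw [← Finsupp.sum_single (toFs g)]
    rw [Finsupp.sum]
    apply Finset.sum_congr rfl
    intro a _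
    rw [map_smul, toFs_ofFs, Finsupp.smul_single, smul_eq_mul, mul_one]
  conv_lhs => rw [h0]
  rw [map_sum]
  exact Finset.sum_congr rfl fun a _ => by rw [map_smul, smul_eq_mul]

theorem sum_sq_apply_single_le (x : StrongDual ℝ JT) (M : ℕ) (s : Finset Nd)
    (hs : ∀ a ∈ s, a.1 ≤ M) :
    ∑ a ∈ s, (x (ofFs (Finsupp.single a 1))) ^ 2 ≤ (M + 1) * ‖x‖ ^ 2 := by
  classical
  set f : Nd → ℝ := fun a => x (ofFs (Finsupp.single a 1)) with hf
  set S := ∑ a ∈ s, f a ^ 2 with hS
  have hS0 : 0 ≤ S := Finset.sum_nonneg fun a _ => sq_nonneg _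
  set g : JT := ∑ a ∈ s, f a • ofFs (Finsupp.single a 1) with hg
  have hga : ∀ a, toFs g a = if a ∈ s then f a else 0 := by
    intro a
    rw [hg, map_sum, Finsupp.finsetSum_apply]
    simp only [map_smul, toFs_ofFs, Finsupp.smul_apply, Finsupp.single_apply, smul_eq_mul,
      mul_ite, mul_one, mul_zero]
    rw [Finset.sum_ite_eq' s a]
  have hxg : x g = S := by
    rw [hg, map_sum]
    exact Finset.sum_congr rfl fun a _ => by rw [map_smul, smul_eq_mul, sq]
  have hnorm : ‖g‖ ^ 2 ≤ (M + 1) * S := by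
    refine (norm_le_of_index_le g M ?_).trans ?_
    · intro a ha
      rw [hga] at ha
      by_cases has : a ∈ s
      · exact hs a has
      · simp [has] at ha
    · apply mul_le_mul_of_nonneg_left _ (by positivity)
      have hsub : (toFs g).support ⊆ s := by
        intro a ha
        by_contra has
        have := Finsupp.mem_support_iff.mp ha
        rw [hga] at this
        simp [has] at this
      calc ∑ a ∈ (toFs g).support, toFs g a ^ 2 ≤ ∑ a ∈ s, toFs g a ^ 2 :=
            Finset.sum_le_sum_of_subset_of_nonneg hsub fun a _ _ => sq_nonneg _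
        _ = S := Finset.sum_congr rfl fun a ha => by rw [hga, if_pos ha]
  have h1 := x.le_opNorm g
  rw [hxg, Real.norm_eq_abs, abs_of_nonneg hS0] at h1
  have h2 : S ^ 2 ≤ ‖x‖ ^ 2 * ((M + 1) * S) := by
    calc S ^ 2 ≤ (‖x‖ * ‖g‖) ^ 2 := by gcongr
      _ = ‖x‖ ^ 2 * ‖g‖ ^ 2 := by ring
      _ ≤ ‖x‖ ^ 2 * ((M + 1) * S) := by gcongr
  by_cases hz : S = 0
  · rw [hz]; positivity
  · have hpos : 0 < S := lt_of_le_of_ne hS0 (Ne.symm hz)
    have : S * S ≤ ((M + 1) * ‖x‖ ^ 2) * S := by nlinarith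
    exact le_of_mul_le_mul_right this hpos

theorem no_equiv_AUC_dualJT :
    ¬ ∃ N : Seminorm ℝ (StrongDual ℝ JT), IsEquivNorm N ∧ IsAUC N := by
  apply no_equiv_AUC_of_trees 1
  intro n
  refine ⟨potF n, rfl, fun l hl => norm_potF_le n l (by omega), fun l m => ?_, fun l Φ => ?_⟩
  · have : potF n (m :: l) - potF n l = coordF (n, m, l) := by
      simp [potF]
    rw [this]
    exact one_le_norm_coordF _
  · have : ∀ m, potF n (m :: l) - potF n l = coordF (n, m, l) := by
      intro m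
      simp [potF]
    simp only [this]
    exact tendsto_apply_coordF Φ n l

theorem not_finiteDimensional_dualJT : ¬ FiniteDimensional ℝ (StrongDual ℝ JT) := by
  intro hfd
  have hli : LinearIndependent ℝ fun m : ℕ => coordF (0, m, []) := by
    rw [linearIndependent_iff']
    intro s c hc m hm
    have := congrArg (fun x : StrongDual ℝ JT => x (ofFs (Finsupp.single (0, m, []) 1))) hc
    simp only [sum_apply, smul_apply, coordF_apply, toFs_ofFs,
      Finsupp.single_apply, smul_eq_mul, zero_apply] at this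
    rw [Finset.sum_eq_single m] at this
    · simpa using this
    · intro m' _ hne
      have : ¬ ((0, m, []) : Nd) = (0, m', []) := by
        intro h
        simp only [Prod.mk.injEq, and_true, true_and] at h
        exact hne h.symm
      simp [this]
    · intro h
      exact absurd hm h
  exact absurd (hli.finite) (not_finite_iff_infinite.mpr inferInstance)

end Vale.Agent.P069
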