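import Mathlib

namespace Vale.Agent.P069

open Filter Topology

theorem exists_apply_gt_of_lt_opNorm {Z : Type*} [NormedAddCommGroup Z] [NormedSpace ℝ Z]
    (ψ : StrongDual ℝ Z) {r : ℝ} (hr : r < ‖ψ‖) : ∃ z : Z, ‖z‖ ≤ 1 ∧ r < ψ z := by
  obtain ⟨x, hx1, hx2⟩ := ψ.exists_lt_apply_of_lt_opNorm hr
  rw [Real.norm_eq_abs] at hx2
  rcases le_total 0 (ψ x) with h | h
  · exact ⟨x, hx1.le, by rwa [abs_of_nonneg h] at hx2⟩
  · refine ⟨-x, by rw [norm_neg]; exact hx1.le, ?_⟩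
    rw [abs_of_nonpos h] at hx2
    rw [map_neg]; exact hx2

theorem tail_lemma {Z : Type*} [NormedAddCommGroup Z] [NormedSpace ℝ Z] (Q : ℕ → Z →L[ℝ] Z)
    (hcomp : ∀ M M', M ≤ M' → ∀ z, Q M (Q M' z) = Q M' z)
    (hcomp' : ∀ M M', M ≤ M' → ∀ z, Q M' (Q M z) = Q M' z)
    (hest : ∀ M z z', ‖(z - Q M z) + Q M z'‖ ^ 2 ≤ ‖z‖ ^ 2 + ‖z'‖ ^ 2)
    (hlim : ∀ z, Tendsto (fun M => Q M z) atTop (𝓝 0))
    (φ : StrongDual ℝ Z) (η : ℝ) (hη : 0 < η) : ∃ M, ‖φ.comp (Q M)‖ ≤ η := by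
  by_contra hcon
  push Not at hcon
  have hQ1 : ∀ M z, ‖Q M z‖ ≤ ‖z‖ := by
    intro M z
    have h := hest M 0 z
    simp only [map_zero, sub_zero, zero_add, norm_zero, ne_eq, OfNat.ofNat_ne_zero,
      not_false_eq_true, zero_pow] at h
    exact (pow_le_pow_iff_left₀ (norm_nonneg _) (norm_nonneg _) (by norm_num)).mp h
  set β := ‖φ.comp (Q 0)‖ with hβ
  have hβη : η < β := hcon 0
  have hβ0 : 0 < β := hη.trans hβη
  set K := β * (1 + ‖φ‖) with hKdef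
  have hK : 0 < K := by positivity
  set ε := η ^ 2 / (2 * K) with hεdef
  have hε : 0 < ε := by positivity
  have hKε : K * ε = η ^ 2 / 2 := by
    rw [hεdef]; field_simp
  obtain ⟨z, hz1, hz2⟩ := exists_apply_gt_of_lt_opNorm (φ.comp (Q 0))
    (show β - ε < ‖φ.comp (Q 0)‖ by linarith)
  obtain ⟨M', hM'⟩ : ∃ M', ‖Q M' z‖ ≤ ε := by
    have h1 : Tendsto (fun M => ‖Q M z‖) atTop (𝓝 0) := by
      simpa using (hlim z).norm
    have h2 : ∀ᶠ M in atTop, ‖Q M z‖ < ε := h1.eventually (gt_mem_nhds hε)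
    obtain ⟨M', hM'⟩ := h2.exists
    exact ⟨M', hM'.le⟩
  obtain ⟨z', hz'1, hz'2⟩ := exists_apply_gt_of_lt_opNorm (φ.comp (Q M')) (hcon M')
  set u := Q 0 z with hu
  have hu1 : ‖u‖ ≤ 1 := (hQ1 0 z).trans hz1
  set w := (β • u - Q M' (β • u)) + Q M' (η • z') with hw
  have hwnorm : ‖w‖ ^ 2 ≤ β ^ 2 + η ^ 2 := by
    have h := hest M' (β • u) (η • z')
    have e1 : ‖β • u‖ ^ 2 ≤ β ^ 2 := by
      rw [norm_smul, Real.norm_eq_abs, abs_of_pos hβ0, mul_pow]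
      have : ‖u‖ ^ 2 ≤ 1 := pow_le_one₀ (norm_nonneg _) hu1
      nlinarith [sq_nonneg β]
    have e2 : ‖η • z'‖ ^ 2 ≤ η ^ 2 := by
      rw [norm_smul, Real.norm_eq_abs, abs_of_pos hη, mul_pow]
      have : ‖z'‖ ^ 2 ≤ 1 := pow_le_one₀ (norm_nonneg _) hz'1
      nlinarith [sq_nonneg η]
    linarith
  have hQw : Q 0 w = w := by
    rw [hw, map_add, map_sub, hcomp 0 M' (Nat.zero_le _), hcomp 0 M' (Nat.zero_le _), map_smul, hu,
      hcomp 0 0 le_rfl]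
  have hφw_le : φ w ≤ β * ‖w‖ := by
    have h1 : (φ.comp (Q 0)) w = φ w := by
      rw [ContinuousLinearMap.comp_apply, hQw]
    have h2 := (φ.comp (Q 0)).le_opNorm w
    rw [h1, Real.norm_eq_abs] at h2
    exact (le_abs_self _).trans h2
  have hQu : Q M' u = Q M' z := by rw [hu, hcomp' 0 M' (Nat.zero_le _)]
  have hφQ : |φ (Q M' z)| ≤ ‖φ‖ * ε := by
    have h := φ.le_opNorm (Q M' z)
    rw [Real.norm_eq_abs] at h
    exact h.trans (mul_le_mul_of_nonneg_left hM' (norm_nonneg φ))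
  have hφw_eq : φ w = β * φ u - β * φ (Q M' z) + η * φ (Q M' z') := by
    rw [hw, map_add, map_sub, map_smul, map_smul, map_smul, map_smul, map_smul, hQu]
    simp only [smul_eq_mul]
  have hz2' : β - ε < φ u := hz2
  have hz'2' : η < φ (Q M' z') := hz'2
  have hlow : β ^ 2 + η ^ 2 / 2 ≤ φ w := by
    rw [hφw_eq]
    have h1 : β * (β - ε) ≤ β * φ u := mul_le_mul_of_nonneg_left hz2'.le hβ0.le
    have h2 : β * φ (Q M' z) ≤ β * (‖φ‖ * ε) :=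
      mul_le_mul_of_nonneg_left ((le_abs_self _).trans hφQ) hβ0.le
    have h3 : η * η ≤ η * φ (Q M' z') := mul_le_mul_of_nonneg_left hz'2'.le hη.le
    have h4 : β * ε + β * (‖φ‖ * ε) = η ^ 2 / 2 := by
      rw [← hKε, hKdef]; ring
    nlinarith
  have hpos : 0 < β ^ 2 + η ^ 2 / 2 := by positivity
  have hsq : (β ^ 2 + η ^ 2 / 2) ^ 2 ≤ β ^ 2 * (β ^ 2 + η ^ 2) := by
    calc (β ^ 2 + η ^ 2 / 2) ^ 2 ≤ (β * ‖w‖) ^ 2 :=
          pow_le_pow_left₀ hpos.le (hlow.trans hφw_le) 2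
      _ = β ^ 2 * ‖w‖ ^ 2 := by ring
      _ ≤ β ^ 2 * (β ^ 2 + η ^ 2) := mul_le_mul_of_nonneg_left hwnorm (sq_nonneg β)
  have hη4 : 0 < η ^ 4 := by positivity
  nlinarith

end Vale.Agent.P069
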