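import Vale.Agent.P069.ResDef
import Vale.Agent.P069.Tail

namespace Vale.Agent.P069

open Filter Topology

theorem pot_resLin_idx (I : Set ℕ) (g : JT) (n : ℕ) (l : List ℕ) (hn : n ∈ I) :
    pot (toFs (resLin (fun a => a.1 ∈ I) g)) n l = pot (toFs g) n l := by
  classical
  induction l with
  | nil => rfl
  | cons m l ih =>
    rw [pot_cons, pot_cons, ih, toFs_resLin, if_pos hn]

theorem pot_resLin_idx_not (I : Set ℕ) (g : JT) (n : ℕ) (l : List ℕ) (hn : n ∉ I) :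
    pot (toFs (resLin (fun a => a.1 ∈ I) g)) n l = 0 := by
  classical
  induction l with
  | nil => rfl
  | cons m l ih =>
    rw [pot_cons, ih, toFs_resLin, if_neg hn, add_zero]

theorem norm_resLin_idx_le (I : Set ℕ) (g : JT) : ‖resLin (fun a => a.1 ∈ I) g‖ ≤ ‖g‖ := by
  apply norm_le_of_JTBound (norm_nonneg _)
  intro ι _ n b q hF
  refine le_trans ?_ (JTBound_norm g ι n b q hF)
  apply Finset.sum_le_sum
  intro i _
  by_cases h : n i ∈ I
  · rw [pot_resLin_idx I g _ _ h, pot_resLin_idx I g _ _ h]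
  · rw [pot_resLin_idx_not I g _ _ h, pot_resLin_idx_not I g _ _ h]
    simp only [sub_self, ne_eq, OfNat.ofNat_ne_zero, not_false_eq_true, zero_pow]
    positivity

theorem upper_est (I : Set ℕ) (z z' : JT) :
    ‖resLin (fun a => a.1 ∈ Iᶜ) z + resLin (fun a => a.1 ∈ I) z'‖ ^ 2 ≤ ‖z‖ ^ 2 + ‖z'‖ ^ 2 := by
  have hnn : 0 ≤ ‖z‖ ^ 2 + ‖z'‖ ^ 2 := by positivity
  have h1 : ‖resLin (fun a => a.1 ∈ Iᶜ) z + resLin (fun a => a.1 ∈ I) z'‖
      ≤ Real.sqrt (‖z‖ ^ 2 + ‖z'‖ ^ 2) := by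
    apply norm_le_of_JTBound (Real.sqrt_nonneg _)
    intro ι _ n b q hF
    rw [Real.sq_sqrt hnn]
    have e1 := JTBound_norm z ι n b q hF
    have e2 := JTBound_norm z' ι n b q hF
    refine le_trans ?_ (add_le_add e1 e2)
    rw [← Finset.sum_add_distrib]
    apply Finset.sum_le_sum
    intro i _
    rw [map_add, Finsupp.coe_add, pot_add, pot_add]
    by_cases h : n i ∈ I
    · have h' : n i ∉ Iᶜ := fun hc => hc h
      rw [pot_resLin_idx I z' _ _ h, pot_resLin_idx I z' _ _ h,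
        pot_resLin_idx_not Iᶜ z _ _ h', pot_resLin_idx_not Iᶜ z _ _ h']
      simp only [zero_add]
      nlinarith [sq_nonneg (pot (toFs z) (n i) (q i) - pot (toFs z) (n i) (b i))]
    · have h' : n i ∈ Iᶜ := h
      rw [pot_resLin_idx_not I z' _ _ h, pot_resLin_idx_not I z' _ _ h,
        pot_resLin_idx Iᶜ z _ _ h', pot_resLin_idx Iᶜ z _ _ h']
      simp only [add_zero]
      nlinarith [sq_nonneg (pot (toFs z') (n i) (q i) - pot (toFs z') (n i) (b i))]
  calc _ ≤ Real.sqrt (‖z‖ ^ 2 + ‖z'‖ ^ 2) ^ 2 := pow_le_pow_left₀ (norm_nonneg _) h1 2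
    _ = _ := Real.sq_sqrt hnn

open Classical in
theorem isFam_comb (I : Set ℕ) {ι₁ ι₂ : Type} {n₁ : ι₁ → ℕ} {b₁ q₁ : ι₁ → List ℕ}
    {n₂ : ι₂ → ℕ} {b₂ q₂ : ι₂ → List ℕ} (h₁ : IsFam n₁ b₁ q₁) (h₂ : IsFam n₂ b₂ q₂) :
    IsFam (Sum.elim n₁ n₂) (Sum.elim b₁ b₂)
      (Sum.elim (fun i => if n₁ i ∈ I then b₁ i else q₁ i)
        (fun j => if n₂ j ∈ I then q₂ j else b₂ j)) where
  suff i := by
    cases i with
    | inl i =>
      simp only [Sum.elim_inl]
      split_ifs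
      · exact List.suffix_refl _
      · exact h₁.suff i
    | inr j =>
      simp only [Sum.elim_inr]
      split_ifs
      · exact h₂.suff j
      · exact List.suffix_refl _
  adm i := by
    cases i with
    | inl i =>
      simp only [Sum.elim_inl]
      split_ifs
      · omega
      · exact h₁.adm i
    | inr j =>
      simp only [Sum.elim_inr]
      split_ifs
      · exact h₂.adm j
      · omega
  disj i j hij hn u hu1 hu2 hu3 hu4 := by
    cases i with
    | inl i =>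
      cases j with
      | inl j =>
        simp only [Sum.elim_inl] at *
        split_ifs at hu1 with c1
        · have := hu1.length_le; omega
        · split_ifs at hu3 with c2
          · have := hu3.length_le; omega
          · exact h₁.disj i j (fun e => hij (by rw [e])) hn u hu1 hu2 hu3 hu4
      | inr j =>
        simp only [Sum.elim_inl, Sum.elim_inr] at *
        split_ifs at hu1 with c1
        · have := hu1.length_le; omega
        · split_ifs at hu3 with c2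
          · exact c1 (hn ▸ c2)
          · have := hu3.length_le; omega
    | inr i =>
      cases j with
      | inl j =>
        simp only [Sum.elim_inl, Sum.elim_inr] at *
        split_ifs at hu3 with c1
        · have := hu3.length_le; omega
        · split_ifs at hu1 with c2
          · exact c1 (hn ▸ c2)
          · have := hu1.length_le; omega
      | inr j =>
        simp only [Sum.elim_inr] at *
        split_ifs at hu1 with c1
        · split_ifs at hu3 with c2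
          · exact h₂.disj i j (fun e => hij (by rw [e])) hn u hu1 hu2 hu3 hu4
          · have := hu3.length_le; omega
        · have := hu1.length_le; omega

theorem comb_est (I : Set ℕ) (g : JT) {ι₁ ι₂ : Type} [Fintype ι₁] [Fintype ι₂]
    {n₁ : ι₁ → ℕ} {b₁ q₁ : ι₁ → List ℕ}
    {n₂ : ι₂ → ℕ} {b₂ q₂ : ι₂ → List ℕ} (h₁ : IsFam n₁ b₁ q₁) (h₂ : IsFam n₂ b₂ q₂) :
    ∑ i, (pot (toFs (resLin (fun a => a.1 ∈ Iᶜ) g)) (n₁ i) (q₁ i)
        - pot (toFs (resLin (fun a => a.1 ∈ Iᶜ) g)) (n₁ i) (b₁ i)) ^ 2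
      + ∑ j, (pot (toFs (resLin (fun a => a.1 ∈ I) g)) (n₂ j) (q₂ j)
        - pot (toFs (resLin (fun a => a.1 ∈ I) g)) (n₂ j) (b₂ j)) ^ 2 ≤ ‖g‖ ^ 2 := by
  classical
  have key := JTBound_norm g (ι₁ ⊕ ι₂) _ _ _ (isFam_comb I h₁ h₂)
  rw [Fintype.sum_sum_type] at key
  refine le_trans (le_of_eq ?_) key
  congr 1
  · apply Finset.sum_congr rfl
    intro i _
    simp only [Sum.elim_inl]
    by_cases h : n₁ i ∈ I
    · have h' : n₁ i ∉ Iᶜ := fun hc => hc h
      rw [pot_resLin_idx_not Iᶜ g _ _ h', pot_resLin_idx_not Iᶜ g _ _ h', if_pos h]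
      simp
    · have h' : n₁ i ∈ Iᶜ := h
      rw [pot_resLin_idx Iᶜ g _ _ h', pot_resLin_idx Iᶜ g _ _ h', if_neg h]
  · apply Finset.sum_congr rfl
    intro j _
    simp only [Sum.elim_inr]
    by_cases h : n₂ j ∈ I
    · rw [pot_resLin_idx I g _ _ h, pot_resLin_idx I g _ _ h, if_pos h]
    · rw [pot_resLin_idx_not I g _ _ h, pot_resLin_idx_not I g _ _ h, if_neg h]
      simp

theorem lower_est (I : Set ℕ) (g : JT) :
    ‖resLin (fun a => a.1 ∈ Iᶜ) g‖ ^ 2 + ‖resLin (fun a => a.1 ∈ I) g‖ ^ 2 ≤ ‖g‖ ^ 2 := by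
  have step1 : ∀ (ι₂ : Type) [Fintype ι₂] (n₂ : ι₂ → ℕ) (b₂ q₂ : ι₂ → List ℕ), IsFam n₂ b₂ q₂ →
      ‖resLin (fun a => a.1 ∈ Iᶜ) g‖ ^ 2
      + ∑ j, (pot (toFs (resLin (fun a => a.1 ∈ I) g)) (n₂ j) (q₂ j)
        - pot (toFs (resLin (fun a => a.1 ∈ I) g)) (n₂ j) (b₂ j)) ^ 2 ≤ ‖g‖ ^ 2 := by
    intro ι₂ _ n₂ b₂ q₂ h₂
    set v := ∑ j, (pot (toFs (resLin (fun a => a.1 ∈ I) g)) (n₂ j) (q₂ j)
        - pot (toFs (resLin (fun a => a.1 ∈ I) g)) (n₂ j) (b₂ j)) ^ 2 with hv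
    have hv2 : v ≤ ‖g‖ ^ 2 := by
      have := JTBound_norm (resLin (fun a => a.1 ∈ I) g) ι₂ n₂ b₂ q₂ h₂
      exact this.trans (pow_le_pow_left₀ (norm_nonneg _) (norm_resLin_idx_le I g) 2)
    have hnn : 0 ≤ ‖g‖ ^ 2 - v := by linarith
    have h1 : ‖resLin (fun a => a.1 ∈ Iᶜ) g‖ ≤ Real.sqrt (‖g‖ ^ 2 - v) := by
      apply norm_le_of_JTBound (Real.sqrt_nonneg _)
      intro ι₁ _ n₁ b₁ q₁ h₁
      rw [Real.sq_sqrt hnn]
      have := comb_est I g h₁ h₂
      linarith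
    have h2 : ‖resLin (fun a => a.1 ∈ Iᶜ) g‖ ^ 2 ≤ ‖g‖ ^ 2 - v := by
      calc _ ≤ Real.sqrt (‖g‖ ^ 2 - v) ^ 2 := pow_le_pow_left₀ (norm_nonneg _) h1 2
        _ = _ := Real.sq_sqrt hnn
    linarith
  set α := ‖resLin (fun a => a.1 ∈ Iᶜ) g‖ ^ 2 with hα
  have hα2 : α ≤ ‖g‖ ^ 2 := pow_le_pow_left₀ (norm_nonneg _) (norm_resLin_idx_le Iᶜ g) 2
  have hnn : 0 ≤ ‖g‖ ^ 2 - α := by linarith
  have h1 : ‖resLin (fun a => a.1 ∈ I) g‖ ≤ Real.sqrt (‖g‖ ^ 2 - α) := by
    apply norm_le_of_JTBound (Real.sqrt_nonneg _)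
    intro ι₂ _ n₂ b₂ q₂ h₂
    rw [Real.sq_sqrt hnn]
    have := step1 ι₂ n₂ b₂ q₂ h₂
    linarith
  have h2 : ‖resLin (fun a => a.1 ∈ I) g‖ ^ 2 ≤ ‖g‖ ^ 2 - α := by
    calc _ ≤ Real.sqrt (‖g‖ ^ 2 - α) ^ 2 := pow_le_pow_left₀ (norm_nonneg _) h1 2
      _ = _ := Real.sq_sqrt hnn
  linarith

/-- restriction to the trees with index in `I` -/
noncomputable def resI (I : Set ℕ) : JT →L[ℝ] JT :=
  resC (fun a => a.1 ∈ I) (norm_resLin_idx_le I)

theorem resI_apply (I : Set ℕ) (g : JT) : resI I g = resLin (fun a => a.1 ∈ I) g := rfl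

open Classical in
theorem toFs_resI (I : Set ℕ) (g : JT) (a : Nd) :
    toFs (resI I g) a = if a.1 ∈ I then toFs g a else 0 := rfl

theorem norm_resI_apply_le (I : Set ℕ) (g : JT) : ‖resI I g‖ ≤ ‖g‖ := norm_resLin_idx_le I g

theorem norm_resI_le (I : Set ℕ) : ‖resI I‖ ≤ 1 :=
  ContinuousLinearMap.opNorm_le_bound _ zero_le_one (fun g => by
    simpa using norm_resI_apply_le I g)

theorem resI_add_resI_compl (I : Set ℕ) (g : JT) : resI Iᶜ g + resI I g = g := by
  classical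
  apply toFs.injective
  ext a
  rw [map_add, Finsupp.add_apply, toFs_resI, toFs_resI]
  by_cases h : a.1 ∈ I
  · have h' : a.1 ∉ Iᶜ := fun hc => hc h
    simp [h, h']
  · have h' : a.1 ∈ Iᶜ := h
    simp [h, h']

theorem resI_resI_of_subset {I J : Set ℕ} (h : J ⊆ I) (g : JT) :
    resI I (resI J g) = resI J g := by
  classical
  apply toFs.injective
  ext a
  rw [toFs_resI, toFs_resI]
  by_cases hJ : a.1 ∈ J
  · simp [hJ, h hJ]
  · simp [hJ]

theorem resI_resI_of_subset' {I J : Set ℕ} (h : J ⊆ I) (g : JT) :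
    resI J (resI I g) = resI J g := by
  classical
  apply toFs.injective
  ext a
  rw [toFs_resI, toFs_resI, toFs_resI]
  by_cases hJ : a.1 ∈ J
  · simp [hJ, h hJ]
  · simp [hJ]

theorem upper_est_dual (I : Set ℕ) (x x' : StrongDual ℝ JT) :
    ‖x.comp (resI Iᶜ) + x'.comp (resI I)‖ ^ 2 ≤ ‖x‖ ^ 2 + ‖x'‖ ^ 2 := by
  have hnn : 0 ≤ ‖x‖ ^ 2 + ‖x'‖ ^ 2 := by positivity
  have h1 : ‖x.comp (resI Iᶜ) + x'.comp (resI I)‖ ≤ Real.sqrt (‖x‖ ^ 2 + ‖x'‖ ^ 2) := by
    apply ContinuousLinearMap.opNorm_le_bound _ (Real.sqrt_nonneg _)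
    intro g
    rw [add_apply, ContinuousLinearMap.comp_apply,
      ContinuousLinearMap.comp_apply]
    set p := ‖resI Iᶜ g‖ with hp
    set r := ‖resI I g‖ with hr
    have hpr : p ^ 2 + r ^ 2 ≤ ‖g‖ ^ 2 := lower_est I g
    have b1 : ‖x (resI Iᶜ g)‖ ≤ ‖x‖ * p := x.le_opNorm _
    have b2 : ‖x' (resI I g)‖ ≤ ‖x'‖ * r := x'.le_opNorm _
    have b3 : ‖x‖ * p + ‖x'‖ * r ≤ Real.sqrt (‖x‖ ^ 2 + ‖x'‖ ^ 2) * ‖g‖ := by
      apply (abs_le_of_sq_le_sq' _ (by positivity)).2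
      rw [mul_pow, Real.sq_sqrt hnn]
      have : (‖x‖ * p + ‖x'‖ * r) ^ 2 ≤ (‖x‖ ^ 2 + ‖x'‖ ^ 2) * (p ^ 2 + r ^ 2) := by
        nlinarith [sq_nonneg (‖x‖ * r - ‖x'‖ * p)]
      exact this.trans (mul_le_mul_of_nonneg_left hpr hnn)
    exact (norm_add_le _ _).trans ((add_le_add b1 b2).trans b3)
  calc _ ≤ Real.sqrt (‖x‖ ^ 2 + ‖x'‖ ^ 2) ^ 2 := pow_le_pow_left₀ (norm_nonneg _) h1 2
    _ = _ := Real.sq_sqrt hnn

theorem sub_resI_eq (I : Set ℕ) (g : JT) : g - resI I g = resI Iᶜ g := by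
  have := resI_add_resI_compl I g
  rw [sub_eq_iff_eq_add]
  exact this.symm

/-- tails of functionals on `JT` are small -/
theorem tail_JT (x : StrongDual ℝ JT) (η : ℝ) (hη : 0 < η) :
    ∃ M : ℕ, ‖x.comp (resI (Set.Ici M))‖ ≤ η := by
  classical
  apply tail_lemma (fun M => resI (Set.Ici M)) _ _ _ _ x η hη
  · intro M M' h z
    exact resI_resI_of_subset (Set.Ici_subset_Ici.mpr h) z
  · intro M M' h z
    exact resI_resI_of_subset' (Set.Ici_subset_Ici.mpr h) z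
  · intro M z z'
    rw [sub_resI_eq]
    exact upper_est (Set.Ici M) z z'
  · intro z
    apply tendsto_atTop_of_eventually_const (i₀ := (toFs z).support.sup (fun a => a.1) + 1)
    intro M hM
    apply toFs.injective
    ext a
    rw [toFs_resI, map_zero, Finsupp.zero_apply]
    split_ifs with h
    · by_contra hne
      have h1 : a ∈ (toFs z).support := Finsupp.mem_support_iff.mpr hne
      have h2 : a.1 ≤ (toFs z).support.sup (fun a => a.1) :=
        Finset.le_sup (f := fun a : Nd => a.1) h1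
      have h3 : M ≤ a.1 := h
      omega
    · rfl

/-- tails of functionals on the dual of `JT` are small -/
theorem tail_dual (Φ : StrongDual ℝ (StrongDual ℝ JT)) (η : ℝ) (hη : 0 < η) :
    ∃ M : ℕ, ∀ x : StrongDual ℝ JT, |Φ (x.comp (resI (Set.Ici M)))| ≤ η * ‖x‖ := by
  have key : ∃ M : ℕ, ‖Φ.comp (ContinuousLinearMap.precomp ℝ (resI (Set.Ici M)))‖ ≤ η := by
    apply tail_lemma (fun M => ContinuousLinearMap.precomp ℝ (resI (Set.Ici M))) _ _ _ _ Φ η hη
    · intro M M' h x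
      ext g
      simp only [ContinuousLinearMap.precomp_apply, ContinuousLinearMap.comp_apply]
      rw [resI_resI_of_subset' (Set.Ici_subset_Ici.mpr h)]
    · intro M M' h x
      ext g
      simp only [ContinuousLinearMap.precomp_apply, ContinuousLinearMap.comp_apply]
      rw [resI_resI_of_subset (Set.Ici_subset_Ici.mpr h)]
    · intro M x x'
      have e : x - ContinuousLinearMap.precomp ℝ (resI (Set.Ici M)) x
          = x.comp (resI (Set.Ici M)ᶜ) := by
        ext g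
        simp only [ContinuousLinearMap.precomp_apply, ContinuousLinearMap.comp_apply, sub_apply]
        rw [← map_sub, sub_resI_eq]
      rw [e]
      exact upper_est_dual (Set.Ici M) x x'
    · intro x
      rw [Metric.tendsto_atTop]
      intro ε hε
      obtain ⟨M, hM⟩ := tail_JT x (ε / 2) (by positivity)
      refine ⟨M, fun M' hM' => ?_⟩
      rw [dist_zero_right, ContinuousLinearMap.precomp_apply]
      have e : x.comp (resI (Set.Ici M')) = (x.comp (resI (Set.Ici M))).comp (resI (Set.Ici M')) := by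
        ext g
        simp only [ContinuousLinearMap.comp_apply]
        rw [resI_resI_of_subset (Set.Ici_subset_Ici.mpr hM')]
      rw [e]
      calc _ ≤ ‖x.comp (resI (Set.Ici M))‖ * ‖resI (Set.Ici M')‖ :=
            ContinuousLinearMap.opNorm_comp_le _ _
        _ ≤ (ε / 2) * 1 := mul_le_mul hM (norm_resI_le _) (norm_nonneg _) (by positivity)
        _ < ε := by linarith
  obtain ⟨M, hM⟩ := key
  refine ⟨M, fun x => ?_⟩
  have h1 := (Φ.comp (ContinuousLinearMap.precomp ℝ (resI (Set.Ici M)))).le_opNorm x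
  rw [ContinuousLinearMap.comp_apply, ContinuousLinearMap.precomp_apply, Real.norm_eq_abs] at h1
  exact h1.trans (mul_le_mul_of_nonneg_right hM (norm_nonneg _))

end Vale.Agent.P069
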