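import Vale.Agent.P069.Restr
import Vale.Agent.P069.Index
import Vale.Agent.P069.Funct

namespace Vale.Agent.P069

open Filter Topology

/- TASK G1 -/

theorem shrinking (x : StrongDual ℝ JT) (η : ℝ) (hη : 0 < η) (A₀ : Finset Nd) :
    ∃ A : Finset Nd, A₀ ⊆ A ∧ DownClosed A ∧
      ∀ g : JT, (∀ a ∈ A, toFs g a = 0) → |x g| ≤ η * ‖g‖ := by
  classical
  obtain ⟨M, hM⟩ := tail_JT x (η / 2) (half_pos hη)
  set f : Nd → ℝ := fun a => x (ofFs (Finsupp.single a 1)) with hf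
  set F : Nd → ℝ := fun a => if a.1 < M then f a ^ 2 else 0 with hF
  have hF0 : ∀ a, 0 ≤ F a := by
    intro a
    simp only [hF]
    split_ifs
    · positivity
    · exact le_rfl
  have hsum : Summable F := by
    refine summable_of_sum_le hF0 (c := (M + 1) * ‖x‖ ^ 2) fun s => ?_
    simp only [hF]
    rw [← Finset.sum_filter]
    exact sum_sq_apply_single_le x M _ fun a ha => (Finset.mem_filter.mp ha).2.le
  obtain ⟨A₁, hA₁⟩ := summable_iff_vanishing_norm.mp hsum ((η / 2) ^ 2) (by positivity)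
  obtain ⟨A, hAsub, hAd⟩ := exists_downClosed_superset (A₀ ∪ A₁)
  refine ⟨A, (Finset.subset_union_left).trans hAsub, hAd, fun g hg => ?_⟩
  have hsplit := resI_add_resI_compl (Set.Ici M) g
  set g1 : JT := resI (Set.Ici M)ᶜ g with hg1
  set g2 : JT := resI (Set.Ici M) g with hg2
  have h2 : |x g2| ≤ η / 2 * ‖g‖ := by
    have := (x.comp (resI (Set.Ici M))).le_opNorm g
    rw [Real.norm_eq_abs] at this
    exact this.trans (mul_le_mul_of_nonneg_right hM (norm_nonneg _))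
  have hg1a : ∀ a, toFs g1 a = if a.1 ∈ (Set.Ici M)ᶜ then toFs g a else 0 := fun a => by
    rw [hg1]
    have := toFs_resLin (fun a => a.1 ∈ (Set.Ici M)ᶜ) g a
    have e : resI (Set.Ici M)ᶜ g = resLin (fun a => a.1 ∈ (Set.Ici M)ᶜ) g := rfl
    rw [e, this]
    congr
  have hg1n : ‖g1‖ ≤ ‖g‖ := norm_resLin_idx_le _ g
  set t := (toFs g1).support with ht
  have ht1 : ∀ a ∈ t, a.1 < M ∧ a ∉ A₁ := by
    intro a ha
    have hne : toFs g1 a ≠ 0 := Finsupp.mem_support_iff.mp ha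
    rw [hg1a] at hne
    split_ifs at hne with hc
    · refine ⟨by simpa using hc, fun hmem => hne (hg a (hAsub (Finset.mem_union_right _ hmem)))⟩
    · exact absurd rfl hne
  have hdisj : Disjoint t A₁ := Finset.disjoint_left.mpr fun a ha => (ht1 a ha).2
  have hsmall : ∑ a ∈ t, f a ^ 2 ≤ (η / 2) ^ 2 := by
    have h3 := hA₁ t hdisj
    rw [Real.norm_eq_abs, abs_of_nonneg (Finset.sum_nonneg fun a _ => hF0 a)] at h3
    have h4 : ∑ a ∈ t, F a = ∑ a ∈ t, f a ^ 2 :=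
      Finset.sum_congr rfl fun a ha => by simp only [hF, if_pos (ht1 a ha).1]
    rw [← h4]; exact h3.le
  have h1 : |x g1| ≤ η / 2 * ‖g‖ := by
    rw [apply_eq_sum x g1]
    have cs : (∑ a ∈ t, toFs g1 a * f a) ^ 2 ≤ (∑ a ∈ t, toFs g1 a ^ 2) * (∑ a ∈ t, f a ^ 2) :=
      Finset.sum_mul_sq_le_sq_mul_sq _ _ _
    have h5 : (∑ a ∈ t, toFs g1 a * f a) ^ 2 ≤ (η / 2 * ‖g‖) ^ 2 := by
      calc (∑ a ∈ t, toFs g1 a * f a) ^ 2 ≤ (∑ a ∈ t, toFs g1 a ^ 2) * (∑ a ∈ t, f a ^ 2) := cs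
        _ ≤ ‖g‖ ^ 2 * (η / 2) ^ 2 := by
            apply mul_le_mul _ hsmall (Finset.sum_nonneg fun a _ => sq_nonneg _) (sq_nonneg _)
            exact (sum_sq_le_norm_sq g1 t).trans (by gcongr)
        _ = (η / 2 * ‖g‖) ^ 2 := by ring
    exact abs_le_of_sq_le_sq h5 (by positivity)
  calc |x g| = |x g1 + x g2| := by rw [← map_add, hsplit]
    _ ≤ |x g1| + |x g2| := abs_add_le _ _
    _ ≤ η / 2 * ‖g‖ + η / 2 * ‖g‖ := add_le_add h1 h2
    _ = η * ‖g‖ := by ring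

end Vale.Agent.P069
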