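import Vale.Agent.P069.KeyB
import Vale.Agent.P069.Shrink

namespace Vale.Agent.P069

/-- the functionals vanishing at the unit vectors of the nodes in `A` -/
noncomputable def evalA (A : Finset Nd) : StrongDual ℝ JT →L[ℝ] (A → ℝ) :=
  ContinuousLinearMap.pi fun a =>
    ContinuousLinearMap.apply ℝ ℝ (ofFs (Finsupp.single (a : Nd) 1))

theorem ker_evalA_mem_cof (A : Finset Nd) :
    LinearMap.ker (evalA A).toLinearMap ∈ cof (StrongDual ℝ JT) := by
  refine ⟨(evalA A).isClosed_ker, ?_⟩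
  exact LinearEquiv.finiteDimensional (evalA A).toLinearMap.quotKerEquivRange.symm

theorem apply_eq_zero_of_ker {A : Finset Nd} {y : StrongDual ℝ JT}
    (hy : y ∈ LinearMap.ker (evalA A).toLinearMap) {g : JT} (hg : ∀ a, a ∉ A → toFs g a = 0) :
    y g = 0 := by
  rw [apply_eq_sum]
  apply Finset.sum_eq_zero
  intro a ha
  have haA : a ∈ A := by
    by_contra hcon
    exact (Finsupp.mem_support_iff.mp ha) (hg a hcon)
  have h1 : evalA A y = 0 := hy
  have h2 : evalA A y ⟨a, haA⟩ = 0 := by rw [h1]; rfl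
  have h3 : y (ofFs (Finsupp.single a 1)) = 0 := h2
  rw [h3, mul_zero]

theorem amuc_step (t : ℝ) (ht : 0 < t) (η : ℝ) (hη : 0 < η) (x : StrongDual ℝ JT)
    (hx : ‖x‖ = 1) :
    ∃ F ∈ cof (StrongDual ℝ JT), ∀ y ∈ F, ‖y‖ = 1 →
      (1 - η) - (t / 18) * η + t * (t / 18) * ((1 - η) / 2)
        ≤ max ‖x + t • y‖ ‖x - t • y‖ * Real.sqrt (1 + 9 * (t / 18) ^ 2) := by
  set s : ℝ := t / 18 with hs_def
  have hs : 0 ≤ s := by positivity
  obtain ⟨g₀, hg₀1, hg₀2⟩ := exists_apply_gt_of_lt_opNorm x (r := 1 - η) (by rw [hx]; linarith)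
  obtain ⟨A, hA₀, hA, hsh⟩ := shrinking x η hη (toFs g₀).support
  refine ⟨_, ker_evalA_mem_cof A, fun y hy hy1 => ?_⟩
  obtain ⟨h₀, hh₀1, hh₀2⟩ := exists_apply_gt_of_lt_opNorm y (r := 1 - η) (by rw [hy1]; linarith)
  set h : JT := resLin (fun a => a ∉ A) h₀ with hh_def
  have hh1 : ‖h‖ ≤ 1 := (norm_resLin_not_mem_le hA h₀).trans hh₀1
  have hgA : ∀ a, a ∉ A → toFs g₀ a = 0 := by
    intro a ha
    by_contra hne
    exact ha (hA₀ (Finsupp.mem_support_iff.mpr hne))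
  have hhA : ∀ a ∈ A, toFs h a = 0 := by
    intro a ha
    rw [hh_def, toFs_resLin]
    simp [ha]
  have hyh : y h = y h₀ := by
    have e : resLin (fun a => a ∈ A) h₀ + h = h₀ := resLin_add_resLin_not (fun a => a ∈ A) h₀
    have z : y (resLin (fun a => a ∈ A) h₀) = 0 := by
      apply apply_eq_zero_of_ker hy
      intro a ha
      rw [toFs_resLin]
      simp [ha]
    rw [← e, map_add, z, zero_add]
  obtain ⟨kp, km, hsub, hkpA, hkmA, hkp1, hkm1, hbp, hbm⟩ :=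
    key_lemma hA (toFs g₀) (toFs h) hgA hhA (JTBound_of_norm_le hg₀1) (JTBound_of_norm_le hh1) s hs
  have hρ : 0 ≤ Real.sqrt (1 + 9 * s ^ 2) := Real.sqrt_nonneg _
  have nkp : ‖ofFs kp‖ ≤ 1 := norm_ofFs_le zero_le_one hkp1
  have nkm : ‖ofFs km‖ ≤ 1 := norm_ofFs_le zero_le_one hkm1
  have ngp : ‖g₀ + s • ofFs kp‖ ≤ Real.sqrt (1 + 9 * s ^ 2) := norm_le_of_JTBound hρ hbp
  have ngm : ‖g₀ + s • ofFs km‖ ≤ Real.sqrt (1 + 9 * s ^ 2) := norm_le_of_JTBound hρ hbm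
  have xkp : |x (ofFs kp)| ≤ η := by
    have := hsh (ofFs kp) hkpA
    nlinarith
  have xkm : |x (ofFs km)| ≤ η := by
    have := hsh (ofFs km) hkmA
    nlinarith
  have yg : y g₀ = 0 := apply_eq_zero_of_ker hy hgA
  have ysub : y (ofFs kp) - y (ofFs km) = y h := by
    rw [← map_sub, ← map_sub, hsub]
    rfl
  have hts : 0 ≤ t * s := by positivity
  by_cases hcase : (1 - η) / 2 ≤ y (ofFs kp)
  · have e : (x + t • y) (g₀ + s • ofFs kp)
        = x g₀ + s * x (ofFs kp) + t * y g₀ + t * s * y (ofFs kp) := by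
      simp only [add_apply, smul_apply, map_add, map_smul,
        smul_eq_mul]
      ring
    have u1 : (x + t • y) (g₀ + s • ofFs kp) ≤ ‖x + t • y‖ * Real.sqrt (1 + 9 * s ^ 2) := by
      calc (x + t • y) (g₀ + s • ofFs kp) ≤ ‖(x + t • y) (g₀ + s • ofFs kp)‖ := le_abs_self _
        _ ≤ ‖x + t • y‖ * ‖g₀ + s • ofFs kp‖ := ContinuousLinearMap.le_opNorm _ _
        _ ≤ ‖x + t • y‖ * Real.sqrt (1 + 9 * s ^ 2) := by gcongr
    have u2 : ‖x + t • y‖ * Real.sqrt (1 + 9 * s ^ 2)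
        ≤ max ‖x + t • y‖ ‖x - t • y‖ * Real.sqrt (1 + 9 * s ^ 2) := by
      gcongr
      exact le_max_left _ _
    have l1 : -η ≤ x (ofFs kp) := (abs_le.mp xkp).1
    have l2 : s * (-η) ≤ s * x (ofFs kp) := mul_le_mul_of_nonneg_left l1 hs
    have l3 : t * s * ((1 - η) / 2) ≤ t * s * y (ofFs kp) := mul_le_mul_of_nonneg_left hcase hts
    rw [e, yg] at u1
    linarith
  · have hcase' : (1 - η) / 2 ≤ - y (ofFs km) := by
      have := not_le.mp hcase
      rw [hyh] at ysub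
      linarith
    have e : (x - t • y) (g₀ + s • ofFs km)
        = x g₀ + s * x (ofFs km) - t * y g₀ + t * s * (- y (ofFs km)) := by
      simp only [sub_apply, smul_apply, map_add, map_smul,
        smul_eq_mul]
      ring
    have u1 : (x - t • y) (g₀ + s • ofFs km) ≤ ‖x - t • y‖ * Real.sqrt (1 + 9 * s ^ 2) := by
      calc (x - t • y) (g₀ + s • ofFs km) ≤ ‖(x - t • y) (g₀ + s • ofFs km)‖ := le_abs_self _
        _ ≤ ‖x - t • y‖ * ‖g₀ + s • ofFs km‖ := ContinuousLinearMap.le_opNorm _ _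
        _ ≤ ‖x - t • y‖ * Real.sqrt (1 + 9 * s ^ 2) := by gcongr
    have u2 : ‖x - t • y‖ * Real.sqrt (1 + 9 * s ^ 2)
        ≤ max ‖x + t • y‖ ‖x - t • y‖ * Real.sqrt (1 + 9 * s ^ 2) := by
      gcongr
      exact le_max_right _ _
    have l1 : -η ≤ x (ofFs km) := (abs_le.mp xkm).1
    have l2 : s * (-η) ≤ s * x (ofFs km) := mul_le_mul_of_nonneg_left l1 hs
    have l3 : t * s * ((1 - η) / 2) ≤ t * s * (- y (ofFs km)) :=
      mul_le_mul_of_nonneg_left hcase' hts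
    rw [e, yg] at u1
    linarith

theorem amuc_dualJT : IsAMUC (normSeminorm ℝ (StrongDual ℝ JT)) := by
  apply IsAMUC.of_delta
  intro t ht
  set s : ℝ := t / 18 with hs_def
  set ρ : ℝ := Real.sqrt (1 + 9 * s ^ 2) with hρ_def
  have hs : 0 < s := by positivity
  have hρ2 : ρ ^ 2 = 1 + 9 * s ^ 2 := Real.sq_sqrt (by positivity)
  have hρ1 : 1 < ρ := by
    rw [hρ_def]
    apply Real.lt_sqrt_of_sq_lt
    nlinarith
  set c : ℝ := 1 + s + t * s / 2 with hc_def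
  have hc : 0 < c := by positivity
  set η : ℝ := ρ * (ρ - 1) / (2 * c) with hη_def
  have hη : 0 < η := by
    have : 0 < ρ - 1 := by linarith
    positivity
  refine ⟨(ρ - 1) / 2, by linarith, fun x hx => ?_⟩
  obtain ⟨F, hF, hFy⟩ := amuc_step t ht η hη x hx
  refine ⟨F, hF, fun y hy hy1 => ?_⟩
  have h1 := hFy y hy hy1
  change 1 + (ρ - 1) / 2 ≤ max ‖x + t • y‖ ‖x - t • y‖
  have hηc : η * c = ρ * (ρ - 1) / 2 := by
    rw [hη_def]
    field_simp
  have hts : t * s / 2 = 9 * s ^ 2 := by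
    rw [hs_def]; ring
  have h2 : (1 - η) - s * η + t * s * ((1 - η) / 2) = ρ ^ 2 - η * c := by
    rw [hρ2, hc_def, ← hts]; ring
  rw [h2, hηc] at h1
  have h3 : ρ * (1 + (ρ - 1) / 2) ≤ max ‖x + t • y‖ ‖x - t • y‖ * ρ := by
    calc ρ * (1 + (ρ - 1) / 2) = ρ ^ 2 - ρ * (ρ - 1) / 2 := by ring
      _ ≤ _ := h1
  have hρ0 : 0 < ρ := by linarith
  rw [mul_comm] at h3
  exact le_of_mul_le_mul_right h3 hρ0

end Vale.Agent.P069
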