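import Vale.Agent.P069.Amuc

namespace Vale.Agent.P069

theorem modAMUC_dualJT_ge (t : ℝ) (ht : 0 < t) :
    ((Real.sqrt (1 + t ^ 2 / 36) - 1 : ℝ) : EReal)
      ≤ modAMUC (normSeminorm ℝ (StrongDual ℝ JT)) t := by
  set ρ : ℝ := Real.sqrt (1 + t ^ 2 / 36) with hρ_def
  have hρe : Real.sqrt (1 + 9 * (t / 18) ^ 2) = ρ := by
    rw [hρ_def]; congr 1; ring
  have hρ2 : ρ ^ 2 = 1 + t ^ 2 / 36 := Real.sq_sqrt (by positivity)
  have hρ1 : 1 < ρ := by
    rw [hρ_def]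
    apply Real.lt_sqrt_of_sq_lt
    have : 0 < t ^ 2 / 36 := by positivity
    linarith
  have hρ0 : 0 < ρ := by linarith
  unfold modAMUC
  refine le_iInf₂ fun x hx => ?_
  apply le_of_forall_lt
  intro r hr
  obtain ⟨r', hr1, hr2⟩ := EReal.lt_iff_exists_real_btwn.mp hr
  have hr2' : r' < ρ - 1 := by exact_mod_cast hr2
  refine lt_of_lt_of_le hr1 ?_
  set c : ℝ := 1 + t / 18 + t * (t / 18) / 2 with hc_def
  have hc : 0 < c := by positivity
  set η : ℝ := ρ * (ρ - 1 - r') / c with hη_def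
  have hη : 0 < η := by
    have : 0 < ρ - 1 - r' := by linarith
    positivity
  obtain ⟨F, hF, hFy⟩ := amuc_step t ht η hη x hx
  refine le_iSup₂_of_le F hF ?_
  refine le_iInf₂ fun y hy => ?_
  have h1 := hFy y hy.1 hy.2
  rw [hρe] at h1
  have hηc : η * c = ρ * (ρ - 1 - r') := by
    rw [hη_def]; field_simp
  have h2 : (1 - η) - (t / 18) * η + t * (t / 18) * ((1 - η) / 2) = ρ ^ 2 - η * c := by
    rw [hρ2, hc_def]; ring
  rw [h2, hηc] at h1
  have h3 : (1 + r') * ρ ≤ max ‖x + t • y‖ ‖x - t • y‖ * ρ := by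
    calc (1 + r') * ρ = ρ ^ 2 - ρ * (ρ - 1 - r') := by ring
      _ ≤ _ := h1
  have h4 : 1 + r' ≤ max ‖x + t • y‖ ‖x - t • y‖ := le_of_mul_le_mul_right h3 hρ0
  have h5 : r' ≤ max (normSeminorm ℝ (StrongDual ℝ JT) (x + t • y))
      (normSeminorm ℝ (StrongDual ℝ JT) (x - t • y)) - 1 := by
    change r' ≤ max ‖x + t • y‖ ‖x - t • y‖ - 1
    linarith
  exact_mod_cast h5

end Vale.Agent.P069
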