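import Mathlib

namespace Vale.Agent.P069

open Finset

/-- Nodes of the forest: `(n, m, l)` is the node `m :: l` of the tree number `n`
(equivalently the edge from the vertex `l` to the vertex `m :: l`). -/
abbrev Nd := ℕ × ℕ × List ℕ

/-- The potential of a function on nodes: sum of the values along the path from the root
of the tree `n` to the vertex `l`. -/
def pot (g : Nd → ℝ) (n : ℕ) : List ℕ → ℝ
  | [] => 0
  | m :: l => g (n, m, l) + pot g n l

@[simp] theorem pot_nil (g : Nd → ℝ) (n : ℕ) : pot g n [] = 0 := rfl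

@[simp] theorem pot_cons (g : Nd → ℝ) (n m : ℕ) (l : List ℕ) :
    pot g n (m :: l) = g (n, m, l) + pot g n l := rfl

theorem pot_add (g h : Nd → ℝ) (n : ℕ) (l : List ℕ) :
    pot (g + h) n l = pot g n l + pot h n l := by
  induction l with
  | nil => simp
  | cons m l ih => simp [ih]; ring

theorem pot_smul (r : ℝ) (g : Nd → ℝ) (n : ℕ) (l : List ℕ) :
    pot (r • g) n l = r * pot g n l := by
  induction l with
  | nil => simp
  | cons m l ih => simp [ih]; ring

theorem pot_zero (n : ℕ) (l : List ℕ) : pot 0 n l = 0 := by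
  induction l with
  | nil => simp
  | cons m l ih => simp [ih]

theorem pot_neg (g : Nd → ℝ) (n : ℕ) (l : List ℕ) : pot (-g) n l = - pot g n l := by
  induction l with
  | nil => simp
  | cons m l ih => simp [ih]; ring

theorem pot_sub (g h : Nd → ℝ) (n : ℕ) (l : List ℕ) :
    pot (g - h) n l = pot g n l - pot h n l := by
  induction l with
  | nil => simp
  | cons m l ih => simp [ih]; ring

theorem pot_congr {g h : Nd → ℝ} {n : ℕ} {l : List ℕ}
    (H : ∀ m l', (m :: l') <:+ l → g (n, m, l') = h (n, m, l')) : pot g n l = pot h n l := by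
  induction l with
  | nil => simp
  | cons m l ih =>
    simp only [pot_cons]
    rw [H m l (List.suffix_refl _), ih (fun m' l' h' => H m' l' (h'.trans (List.suffix_cons _ _)))]

/-- A finite family of admissible pairwise disjoint segments `(b i, q i]` in the trees `n i`. -/
structure IsFam {ι : Type} (n : ι → ℕ) (b q : ι → List ℕ) : Prop where
  suff : ∀ i, b i <:+ q i
  adm : ∀ i, (q i).length ≤ (b i).length + (n i + 1)
  disj : ∀ i j, i ≠ j → n i = n j → ∀ u, u <:+ q i → (b i).length < u.length →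
    u <:+ q j → (b j).length < u.length → False

/-- `c` bounds the James tree norm of `g`. -/
def JTBound (g : Nd → ℝ) (c : ℝ) : Prop :=
  ∀ (ι : Type) [Fintype ι] (n : ι → ℕ) (b q : ι → List ℕ), IsFam n b q →
    ∑ i, (pot g (n i) (q i) - pot g (n i) (b i)) ^ 2 ≤ c ^ 2

theorem IsFam.sub {ι : Type} {n : ι → ℕ} {b q b' q' : ι → List ℕ} (h : IsFam n b q)
    (h1 : ∀ i, b i <:+ b' i) (h2 : ∀ i, b' i <:+ q' i) (h3 : ∀ i, q' i <:+ q i) :
    IsFam n b' q' where
  suff := h2
  adm i := by
    have := h.adm i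
    have := (h1 i).length_le
    have := (h3 i).length_le
    omega
  disj i j hij hn u hu1 hu2 hu3 hu4 :=
    h.disj i j hij hn u (hu1.trans (h3 i)) (lt_of_le_of_lt (h1 i).length_le hu2)
      (hu3.trans (h3 j)) (lt_of_le_of_lt (h1 j).length_le hu4)

theorem IsFam.split {ι : Type} {n : ι → ℕ} {b q c : ι → List ℕ} (h : IsFam n b q)
    (h1 : ∀ i, b i <:+ c i) (h2 : ∀ i, c i <:+ q i) :
    IsFam (Sum.elim n n) (Sum.elim b c) (Sum.elim c q) where
  suff i := by
    cases i with
    | inl i => exact h1 i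
    | inr i => exact h2 i
  adm i := by
    cases i with
    | inl i =>
      have := h.adm i
      have := (h2 i).length_le
      simp only [Sum.elim_inl]
      omega
    | inr i =>
      have := h.adm i
      have := (h1 i).length_le
      simp only [Sum.elim_inr]
      omega
  disj i j hij hn u hu1 hu2 hu3 hu4 := by
    cases i with
    | inl i =>
      cases j with
      | inl j =>
        simp only [Sum.elim_inl] at *
        exact h.disj i j (fun e => hij (by rw [e])) hn u (hu1.trans (h2 i)) hu2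
          (hu3.trans (h2 j)) hu4
      | inr j =>
        simp only [Sum.elim_inl, Sum.elim_inr] at *
        by_cases e : i = j
        · subst e
          have := hu1.length_le
          omega
        · exact h.disj i j e hn u (hu1.trans (h2 i)) hu2 hu3
            (lt_of_le_of_lt (h1 j).length_le hu4)
    | inr i =>
      cases j with
      | inl j =>
        simp only [Sum.elim_inl, Sum.elim_inr] at *
        by_cases e : i = j
        · subst e
          have := hu3.length_le
          omega
        · exact h.disj i j e hn u hu1 (lt_of_le_of_lt (h1 i).length_le hu2)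
            (hu3.trans (h2 j)) hu4
      | inr j =>
        simp only [Sum.elim_inr] at *
        exact h.disj i j (fun e => hij (by rw [e])) hn u hu1
          (lt_of_le_of_lt (h1 i).length_le hu2) hu3 (lt_of_le_of_lt (h1 j).length_le hu4)

theorem JTBound.mono {g : Nd → ℝ} {c c' : ℝ} (h : JTBound g c) (hc : 0 ≤ c) (hcc : c ≤ c') :
    JTBound g c' := by
  intro ι _ n b q hF
  exact (h ι n b q hF).trans (by gcongr)

theorem JTBound.add {g h : Nd → ℝ} {c d : ℝ} (hg : JTBound g c) (hh : JTBound h d)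
    (hc : 0 ≤ c) (hd : 0 ≤ d) : JTBound (g + h) (c + d) := by
  intro ι _ n b q hF
  have h1 := hg ι n b q hF
  have h2 := hh ι n b q hF
  set A : ι → ℝ := fun i => pot g (n i) (q i) - pot g (n i) (b i) with hA
  set B : ι → ℝ := fun i => pot h (n i) (q i) - pot h (n i) (b i) with hB
  have e : ∀ i, pot (g + h) (n i) (q i) - pot (g + h) (n i) (b i) = A i + B i := by
    intro i
    simp only [pot_add, hA, hB]
    ring
  simp only [e]
  have cs : (∑ i, A i * B i) ^ 2 ≤ (∑ i, A i ^ 2) * (∑ i, B i ^ 2) :=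
    Finset.sum_mul_sq_le_sq_mul_sq _ _ _
  have cs2 : ∑ i, A i * B i ≤ c * d := by
    have : (∑ i, A i * B i) ^ 2 ≤ (c * d) ^ 2 := by
      calc (∑ i, A i * B i) ^ 2 ≤ (∑ i, A i ^ 2) * (∑ i, B i ^ 2) := cs
        _ ≤ c ^ 2 * d ^ 2 := by
            apply mul_le_mul h1 h2 (Finset.sum_nonneg fun i _ => sq_nonneg _) (sq_nonneg _)
        _ = (c * d) ^ 2 := by ring
    exact abs_le_of_sq_le_sq' this (mul_nonneg hc hd) |>.2
  calc ∑ i, (A i + B i) ^ 2 = ∑ i, A i ^ 2 + 2 * ∑ i, A i * B i + ∑ i, B i ^ 2 := by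
        rw [Finset.mul_sum, ← Finset.sum_add_distrib, ← Finset.sum_add_distrib]
        exact Finset.sum_congr rfl fun i _ => by ring
    _ ≤ c ^ 2 + 2 * (c * d) + d ^ 2 := by linarith
    _ = (c + d) ^ 2 := by ring

theorem JTBound.smul {g : Nd → ℝ} {c : ℝ} (hg : JTBound g c) (r : ℝ) :
    JTBound (r • g) (|r| * c) := by
  intro ι _ n b q hF
  have h1 := hg ι n b q hF
  have e : ∀ i, (pot (r • g) (n i) (q i) - pot (r • g) (n i) (b i)) ^ 2
      = r ^ 2 * (pot g (n i) (q i) - pot g (n i) (b i)) ^ 2 := by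
    intro i
    simp only [pot_smul]
    ring
  simp only [e, ← Finset.mul_sum]
  calc r ^ 2 * ∑ i, (pot g (n i) (q i) - pot g (n i) (b i)) ^ 2 ≤ r ^ 2 * c ^ 2 := by gcongr
    _ = (|r| * c) ^ 2 := by rw [mul_pow, sq_abs]
def potL (n : ℕ) (l : List ℕ) : (Nd → ℝ) →ₗ[ℝ] ℝ where
  toFun g := pot g n l
  map_add' g h := pot_add g h n l
  map_smul' r g := by simp [pot_smul]

@[simp] theorem potL_apply (n : ℕ) (l : List ℕ) (g : Nd → ℝ) : potL n l g = pot g n l := rfl

theorem pot_single (a : Nd) (r : ℝ) (n : ℕ) (q : List ℕ) :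
    pot (Finsupp.single a r) n q = if n = a.1 ∧ (a.2.1 :: a.2.2) <:+ q then r else 0 := by
  obtain ⟨n₀, m₀, l₀⟩ := a
  induction q with
  | nil => simp
  | cons m l ih =>
    simp only [pot_cons, ih, Finsupp.single_apply, List.suffix_cons_iff]
    by_cases h1 : (n₀, m₀, l₀) = (n, m, l)
    · simp only [Prod.mk.injEq] at h1
      obtain ⟨rfl, rfl, rfl⟩ := h1
      have : ¬ (m₀ :: l₀) <:+ l₀ := fun h => by
        have := h.length_le
        simp at this
      simp [this]
    · have : ¬ (n = n₀ ∧ m₀ :: l₀ = m :: l) := by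
        rintro ⟨rfl, h⟩
        simp only [List.cons.injEq] at h
        exact h1 (by rw [h.1, h.2])
      by_cases h2 : n = n₀
      · subst h2
        have h3 : ¬ (m₀ :: l₀ = m :: l) := fun h => this ⟨rfl, h⟩
        simp [h1, h3]
      · simp [h1, h2]

/-- the node `a` belongs to the segment `(b, q]` of the tree `n` -/
def InSeg (a : Nd) (n : ℕ) (b q : List ℕ) : Prop :=
  n = a.1 ∧ (a.2.1 :: a.2.2) <:+ q ∧ b.length < a.2.2.length + 1

open Classical in
theorem pot_single_sub (a : Nd) (r : ℝ) (n : ℕ) {b q : List ℕ} (hbq : b <:+ q) :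
    pot (Finsupp.single a r) n q - pot (Finsupp.single a r) n b
      = r * (if InSeg a n b q then 1 else 0) := by
  rw [pot_single, pot_single]
  unfold InSeg
  by_cases h1 : n = a.1
  · by_cases h2 : (a.2.1 :: a.2.2) <:+ q
    · by_cases h3 : (a.2.1 :: a.2.2) <:+ b
      · have : ¬ b.length < a.2.2.length + 1 := by
          have := h3.length_le
          simp at this
          omega
        simp [h1, h2, h3, this]
      · have : b.length < a.2.2.length + 1 := by
          by_contra hcon
          apply h3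
          apply List.suffix_of_suffix_length_le h2 hbq
          simp
          omega
        simp [h1, h2, h3, this]
    · have h3 : ¬ (a.2.1 :: a.2.2) <:+ b := fun h => h2 (h.trans hbq)
      simp [h2, h3]
  · simp [h1]

open Classical in
theorem pot_sub_eq_sum (g : Nd →₀ ℝ) (n : ℕ) {b q : List ℕ} (hbq : b <:+ q) :
    pot g n q - pot g n b = ∑ a ∈ g.support, g a * (if InSeg a n b q then 1 else 0) := by
  have h0 : (g : Nd → ℝ) = ∑ a ∈ g.support, ((Finsupp.single a (g a) : Nd →₀ ℝ) : Nd → ℝ) := by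
    conv_lhs => rw [← Finsupp.sum_single g]
    rw [Finsupp.sum, Finsupp.coe_finsetSum]
  have h1 : ∀ l, pot g n l = ∑ a ∈ g.support, pot (Finsupp.single a (g a)) n l := by
    intro l
    rw [← potL_apply]
    conv_lhs => rw [h0]
    rw [map_sum]
    rfl
  rw [h1, h1, ← Finset.sum_sub_distrib]
  exact Finset.sum_congr rfl fun a _ => pot_single_sub a (g a) n hbq

open Classical in
theorem IsFam.sum_inSeg_le {ι : Type} [Fintype ι] {n : ι → ℕ} {b q : ι → List ℕ}
    (h : IsFam n b q) (a : Nd) :
    ∑ i, (if InSeg a (n i) (b i) (q i) then (1 : ℝ) else 0) ≤ 1 := by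
  rw [Finset.sum_boole]
  have : (Finset.univ.filter fun i => InSeg a (n i) (b i) (q i)).card ≤ 1 := by
    rw [Finset.card_le_one_iff]
    intro i j hi hj
    simp only [Finset.mem_filter, Finset.mem_univ, true_and] at hi hj
    by_contra hij
    exact h.disj i j hij (hi.1.trans hj.1.symm) (a.2.1 :: a.2.2) hi.2.1 (by simpa using hi.2.2)
      hj.2.1 (by simpa using hj.2.2)
  exact_mod_cast this

theorem IsFam.sum_pot_le {ι : Type} [Fintype ι] {n : ι → ℕ} {b q : ι → List ℕ}
    (h : IsFam n b q) (μ : Nd →₀ ℝ) (hμ : ∀ a, 0 ≤ μ a) :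
    ∑ i, (pot μ (n i) (q i) - pot μ (n i) (b i)) ≤ ∑ a ∈ μ.support, μ a := by
  classical
  simp only [pot_sub_eq_sum μ _ (h.suff _)]
  rw [Finset.sum_comm]
  apply Finset.sum_le_sum
  intro a _
  rw [← Finset.mul_sum]
  calc μ a * ∑ i, (if InSeg a (n i) (b i) (q i) then (1 : ℝ) else 0) ≤ μ a * 1 := by
        apply mul_le_mul_of_nonneg_left (h.sum_inSeg_le a) (hμ a)
    _ = μ a := mul_one _

theorem pot_sub_nonneg {μ : Nd → ℝ} (hμ : ∀ a, 0 ≤ μ a) (n : ℕ) {b q : List ℕ} (hbq : b <:+ q) :
    0 ≤ pot μ n q - pot μ n b := by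
  induction q with
  | nil =>
    have : b = [] := List.suffix_nil.mp hbq
    simp [this]
  | cons m l ih =>
    rcases List.suffix_cons_iff.mp hbq with h | h
    · simp [h]
    · have := ih h
      have := hμ (n, m, l)
      simp only [pot_cons]
      linarith

theorem pot_sub_sq_le (g : Nd → ℝ) (n : ℕ) {b q : List ℕ} (hbq : b <:+ q) :
    (pot g n q - pot g n b) ^ 2 ≤
      ((q.length : ℝ) - b.length) * (pot (fun a => g a ^ 2) n q - pot (fun a => g a ^ 2) n b) := by
  induction q with
  | nil =>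
    have : b = [] := List.suffix_nil.mp hbq
    simp [this]
  | cons m l ih =>
    rcases List.suffix_cons_iff.mp hbq with h | h
    · simp [h]
    · have h1 := ih h
      have h2 : 0 ≤ pot (fun a => g a ^ 2) n l - pot (fun a => g a ^ 2) n b :=
        pot_sub_nonneg (fun a => sq_nonneg _) n h
      have h3 : (0 : ℝ) ≤ (l.length : ℝ) - b.length := by
        have := h.length_le
        have : (b.length : ℝ) ≤ l.length := by exact_mod_cast this
        linarith
      simp only [pot_cons, List.length_cons, Nat.cast_add, Nat.cast_one]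
      set S := pot g n l - pot g n b
      set Q := pot (fun a => g a ^ 2) n l - pot (fun a => g a ^ 2) n b
      set d := (l.length : ℝ) - b.length
      set x := g (n, m, l)
      have h4 : 2 * (x * S) ≤ d * x ^ 2 + Q := by
        have h5 : (2 * (x * S)) ^ 2 ≤ (d * x ^ 2 + Q) ^ 2 := by
          have : (2 * (x * S)) ^ 2 = 4 * x ^ 2 * S ^ 2 := by ring
          rw [this]
          have : 4 * x ^ 2 * S ^ 2 ≤ 4 * x ^ 2 * (d * Q) := by
            apply mul_le_mul_of_nonneg_left h1 (by positivity)
          nlinarith [sq_nonneg (d * x ^ 2 - Q)]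
        exact (abs_le_of_sq_le_sq' h5 (by positivity)).2
      have e1 : x + pot g n l - pot g n b = x + S := by ring
      have e2 : x ^ 2 + pot (fun a => g a ^ 2) n l - pot (fun a => g a ^ 2) n b = x ^ 2 + Q := by
        ring
      have e3 : (l.length : ℝ) + 1 - b.length = d + 1 := by ring
      rw [e1, e2, e3]
      nlinarith

theorem pot_eq_zero_of {g : Nd → ℝ} {n : ℕ} (h : ∀ m l, g (n, m, l) = 0) (l : List ℕ) :
    pot g n l = 0 := by
  induction l with
  | nil => rfl
  | cons m l ih => simp [h, ih]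

/-- comparison with the `ℓ₂` norm on the trees of index at most `M` -/
theorem JTBound_of_index_le (g : Nd →₀ ℝ) (M : ℕ) (hM : ∀ a ∈ g.support, a.1 ≤ M) :
    JTBound g (Real.sqrt ((M + 1) * ∑ a ∈ g.support, g a ^ 2)) := by
  intro ι _ n b q hF
  have hnn : (0 : ℝ) ≤ (M + 1) * ∑ a ∈ g.support, g a ^ 2 := by positivity
  rw [Real.sq_sqrt hnn]
  set μ : Nd →₀ ℝ := g.mapRange (fun r => r ^ 2) (by simp) with hμ
  have hμa : ∀ a, μ a = g a ^ 2 := fun a => by simp [hμ]
  have hμf : (μ : Nd → ℝ) = fun a => g a ^ 2 := funext hμa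
  have hsum : ∑ a ∈ μ.support, μ a ≤ ∑ a ∈ g.support, g a ^ 2 := by
    have hsub : μ.support ⊆ g.support := Finsupp.support_mapRange
    calc ∑ a ∈ μ.support, μ a = ∑ a ∈ μ.support, g a ^ 2 :=
          Finset.sum_congr rfl fun a _ => hμa a
      _ ≤ ∑ a ∈ g.support, g a ^ 2 :=
          Finset.sum_le_sum_of_subset_of_nonneg hsub fun a _ _ => sq_nonneg _
  have key : ∀ i, (pot g (n i) (q i) - pot g (n i) (b i)) ^ 2 ≤
      (M + 1) * (pot μ (n i) (q i) - pot μ (n i) (b i)) := by
    intro i
    have hnn2 : 0 ≤ pot μ (n i) (q i) - pot μ (n i) (b i) :=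
      pot_sub_nonneg (fun a => by rw [hμa]; positivity) _ (hF.suff i)
    by_cases hi : n i ≤ M
    · have h1 := pot_sub_sq_le g (n i) (hF.suff i)
      rw [← hμf] at h1
      refine h1.trans ?_
      apply mul_le_mul_of_nonneg_right _ hnn2
      have h2 := hF.adm i
      have h3 : ((q i).length : ℝ) ≤ (b i).length + (n i + 1) := by exact_mod_cast h2
      have h4 : (n i : ℝ) ≤ M := by exact_mod_cast hi
      linarith
    · have hz : ∀ m l, g (n i, m, l) = 0 := by
        intro m l
        by_contra hne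
        exact hi (hM _ (Finsupp.mem_support_iff.mpr hne))
      rw [pot_eq_zero_of hz, pot_eq_zero_of hz]
      simp only [sub_self, ne_eq, OfNat.ofNat_ne_zero, not_false_eq_true, zero_pow]
      positivity
  calc ∑ i, (pot g (n i) (q i) - pot g (n i) (b i)) ^ 2
      ≤ ∑ i, (M + 1) * (pot μ (n i) (q i) - pot μ (n i) (b i)) := Finset.sum_le_sum fun i _ => key i
    _ = (M + 1) * ∑ i, (pot μ (n i) (q i) - pot μ (n i) (b i)) := by rw [Finset.mul_sum]
    _ ≤ (M + 1) * ∑ a ∈ g.support, g a ^ 2 := by
        apply mul_le_mul_of_nonneg_left _ (by positivity)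
        exact (hF.sum_pot_le μ (fun a => by rw [hμa]; positivity)).trans hsum

theorem exists_JTBound (g : Nd →₀ ℝ) : ∃ c : ℝ, 0 ≤ c ∧ JTBound g c := by
  refine ⟨_, Real.sqrt_nonneg _, JTBound_of_index_le g (g.support.sup fun a => a.1) ?_⟩
  intro a ha
  exact Finset.le_sup (f := fun a : Nd => a.1) ha

/-- singletons form a family -/
theorem isFam_singletons (s : Finset Nd) :
    IsFam (ι := s) (fun a => a.1.1) (fun a => a.1.2.2) (fun a => a.1.2.1 :: a.1.2.2) where
  suff a := List.suffix_cons _ _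
  adm a := by simp
  disj a a' hne hn u h1 h2 h3 h4 := by
    apply hne
    have e1 : u = a.1.2.1 :: a.1.2.2 := h1.eq_of_length_le (by simp; omega)
    have e2 : u = a'.1.2.1 :: a'.1.2.2 := h3.eq_of_length_le (by simp; omega)
    rw [e1] at e2
    simp only [List.cons.injEq] at e2
    apply Subtype.ext
    apply Prod.ext hn
    exact Prod.ext e2.1 e2.2

theorem JTBound.sum_sq_le {g : Nd → ℝ} {c : ℝ} (h : JTBound g c) (s : Finset Nd) :
    ∑ a ∈ s, g a ^ 2 ≤ c ^ 2 := by
  have := h s _ _ _ (isFam_singletons s)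
  simp only [pot_cons, add_sub_cancel_right] at this
  rw [← Finset.sum_coe_sort s (fun a => g a ^ 2)]
  exact this

end Vale.Agent.P069
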