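import Mathlib

namespace Vale.Agent.P069

open Set

variable {X : Type*} [NormedAddCommGroup X] [NormedSpace ℝ X]

/-- The set of closed subspaces of finite codimension. -/
def cof (X : Type*) [NormedAddCommGroup X] [NormedSpace ℝ X] : Set (Submodule ℝ X) :=
  {F | IsClosed (F : Set X) ∧ FiniteDimensional ℝ (X ⧸ F)}

/-- `N` is an equivalent norm on `X`. -/
def IsEquivNorm (N : Seminorm ℝ X) : Prop :=
  ∃ c C : ℝ, 0 < c ∧ 0 < C ∧ ∀ x : X, c * ‖x‖ ≤ N x ∧ N x ≤ C * ‖x‖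

/-- The modulus of asymptotic uniform convexity of `N`, as an extended real. -/
noncomputable def modAUC (N : Seminorm ℝ X) (t : ℝ) : EReal :=
  ⨅ x ∈ {x : X | N x = 1}, ⨆ F ∈ cof X, ⨅ y ∈ {y : X | y ∈ F ∧ N y = 1},
    ((N (x + t • y) - 1 : ℝ) : EReal)

/-- The modulus of asymptotic midpoint uniform convexity of `N`, as an extended real. -/
noncomputable def modAMUC (N : Seminorm ℝ X) (t : ℝ) : EReal :=
  ⨅ x ∈ {x : X | N x = 1}, ⨆ F ∈ cof X, ⨅ y ∈ {y : X | y ∈ F ∧ N y = 1},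
    ((max (N (x + t • y)) (N (x - t • y)) - 1 : ℝ) : EReal)

def IsAUC (N : Seminorm ℝ X) : Prop := ∀ t : ℝ, 0 < t → 0 < modAUC N t

def IsAMUC (N : Seminorm ℝ X) : Prop := ∀ t : ℝ, 0 < t → 0 < modAMUC N t

/-- Reflexivity: the canonical embedding into the bidual is onto. -/
def IsReflexiveSpace (X : Type*) [NormedAddCommGroup X] [NormedSpace ℝ X] : Prop :=
  Function.Surjective (NormedSpace.inclusionInDoubleDual ℝ X)

theorem IsAUC.exists_delta {N : Seminorm ℝ X} (h : IsAUC N) {t : ℝ} (ht : 0 < t) :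
    ∃ δ : ℝ, 0 < δ ∧ ∀ x : X, N x = 1 → ∃ F ∈ cof X, ∀ y ∈ F, N y = 1 →
      1 + δ ≤ N (x + t • y) := by
  have h0 := h t ht
  obtain ⟨δ, hδ0, hδ⟩ := EReal.lt_iff_exists_real_btwn.mp h0
  refine ⟨δ, by exact_mod_cast hδ0, fun x hx => ?_⟩
  have h1 : (δ : EReal) < ⨆ F ∈ cof X, ⨅ y ∈ {y : X | y ∈ F ∧ N y = 1},
      ((N (x + t • y) - 1 : ℝ) : EReal) := by
    refine lt_of_lt_of_le hδ ?_
    unfold modAUC
    exact iInf₂_le x hx
  obtain ⟨F, hF⟩ := lt_iSup_iff.mp h1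
  obtain ⟨hFc, hF⟩ := lt_iSup_iff.mp hF
  refine ⟨F, hFc, fun y hy hNy => ?_⟩
  have h2 : (δ : EReal) < ((N (x + t • y) - 1 : ℝ) : EReal) :=
    lt_of_lt_of_le hF (iInf₂_le y ⟨hy, hNy⟩)
  have h3 : δ < N (x + t • y) - 1 := by exact_mod_cast h2
  linarith

theorem IsAMUC.of_delta {N : Seminorm ℝ X}
    (h : ∀ t : ℝ, 0 < t → ∃ δ : ℝ, 0 < δ ∧ ∀ x : X, N x = 1 → ∃ F ∈ cof X, ∀ y ∈ F, N y = 1 →
      1 + δ ≤ max (N (x + t • y)) (N (x - t • y))) : IsAMUC N := by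
  intro t ht
  obtain ⟨δ, hδ0, hδ⟩ := h t ht
  have : (δ : EReal) ≤ modAMUC N t := by
    unfold modAMUC
    refine le_iInf₂ fun x hx => ?_
    obtain ⟨F, hFc, hF⟩ := hδ x hx
    refine le_iSup₂_of_le F hFc ?_
    refine le_iInf₂ fun y hy => ?_
    have := hF y hy.1 hy.2
    exact_mod_cast (by linarith : δ ≤ max (N (x + t • y)) (N (x - t • y)) - 1)
  refine lt_of_lt_of_le ?_ this
  exact_mod_cast hδ0

end Vale.Agent.P069
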