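import Vale.Agent.P069.Restr

namespace Vale.Agent.P069

/-- one-signed part of the potential `H`, the sign depending on the exit vertex from `A` -/
noncomputable def Kpot (A : Finset Nd) (sg H : ℕ → List ℕ → ℝ) (n : ℕ) (w : List ℕ) : ℝ :=
  sg n (lastA A n w) * max (sg n (lastA A n w) * H n w) 0

theorem Kpot_sub_Kpot_neg (A : Finset Nd) (sg H : ℕ → List ℕ → ℝ)
    (hsg : ∀ n v, sg n v = 1 ∨ sg n v = -1) (n : ℕ) (w : List ℕ) :
    Kpot A sg H n w - Kpot A sg (fun n w => - H n w) n w = H n w := by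
  unfold Kpot
  rcases hsg n (lastA A n w) with h | h <;> rw [h]
  · have := max_zero_sub_max_neg_zero_eq_self (H n w)
    simp
  · have := max_zero_sub_max_neg_zero_eq_self (H n w)
    simp only [neg_mul, one_mul, neg_neg]
    linarith

theorem sg_mul_Kpot_nonneg (A : Finset Nd) (sg H : ℕ → List ℕ → ℝ) (n : ℕ) (w : List ℕ) :
    0 ≤ sg n (lastA A n w) * Kpot A sg H n w := by
  unfold Kpot
  rw [← mul_assoc]
  exact mul_nonneg (mul_self_nonneg _) (le_max_right _ _)

theorem abs_phi_sub_le (s x y : ℝ) (hs : s = 1 ∨ s = -1) :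
    |s * max (s * x) 0 - s * max (s * y) 0| ≤ |x - y| := by
  have h1 : |s| = 1 := by rcases hs with h | h <;> simp [h]
  rw [← mul_sub, abs_mul, h1, one_mul]
  have h2 := abs_max_sub_max_le_abs (s * x) (s * y) 0
  refine h2.trans ?_
  rw [← mul_sub, abs_mul, h1, one_mul]

theorem abs_Kpot_le (A : Finset Nd) (sg H : ℕ → List ℕ → ℝ)
    (hsg : ∀ n v, sg n v = 1 ∨ sg n v = -1) (n : ℕ) (w : List ℕ) :
    |Kpot A sg H n w| ≤ |H n w| := by
  unfold Kpot
  have := abs_phi_sub_le (sg n (lastA A n w)) (H n w) 0 (hsg _ _)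
  simpa using this

theorem eq_of_pot_eq {g h : Nd → ℝ} (H : ∀ n w, pot g n w = pot h n w) : g = h := by
  funext ⟨n, m, l⟩
  have h1 := H n (m :: l)
  have h2 := H n l
  simp only [pot_cons] at h1
  linarith

theorem exists_kfun {A : Finset Nd} (hA : DownClosed A) (sg : ℕ → List ℕ → ℝ)
    (h : Nd →₀ ℝ) (hh : ∀ a ∈ A, h a = 0) :
    ∃ k : Nd →₀ ℝ, (∀ a ∈ A, k a = 0) ∧ ∀ n w, pot k n w = Kpot A sg (pot h) n w := by
  have hin : ∀ n m l, (n, m, l) ∈ A →
      Kpot A sg (pot h) n (m :: l) - Kpot A sg (pot h) n l = 0 := by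
    intro n m l hmem
    have hb1 : InBar A n (m :: l) := hmem
    have hb2 : InBar A n l := hb1.of_suffix hA (List.suffix_cons _ _)
    unfold Kpot
    rw [pot_of_inBar hA hh hb1, pot_of_inBar hA hh hb2]
    simp
  let k : Nd →₀ ℝ := Finsupp.onFinset h.support
    (fun a => Kpot A sg (pot h) a.1 (a.2.1 :: a.2.2) - Kpot A sg (pot h) a.1 a.2.2) (by
      rintro ⟨n, m, l⟩ hne
      rw [Finsupp.mem_support_iff]
      intro h0
      apply hne
      by_cases hmem : (n, m, l) ∈ A
      · exact hin n m l hmem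
      · have e1 : lastA A n (m :: l) = lastA A n l := by
          simp [lastA, hmem]
        have e2 : pot h n (m :: l) = pot h n l := by
          simp [h0]
        simp only [Kpot, e1, e2, sub_self])
  have hk : ∀ n m l, k (n, m, l) = Kpot A sg (pot h) n (m :: l) - Kpot A sg (pot h) n l :=
    fun n m l => rfl
  refine ⟨k, ?_, ?_⟩
  · rintro ⟨n, m, l⟩ hmem
    rw [hk]
    exact hin n m l hmem
  · intro n w
    induction w with
    | nil => simp [Kpot]
    | cons m l ih =>
      rw [pot_cons, hk, ih]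
      ring

theorem JTBound_of_pot_eq_Kpot {A : Finset Nd} (hA : DownClosed A) (sg : ℕ → List ℕ → ℝ)
    (hsg : ∀ n v, sg n v = 1 ∨ sg n v = -1) {h : Nd → ℝ} (hh : ∀ a ∈ A, h a = 0) {c : ℝ}
    (hb : JTBound h c) {k : Nd → ℝ} (hk : ∀ n w, pot k n w = Kpot A sg (pot h) n w) :
    JTBound k c := by
  intro ι _ n b q hF
  let cc : ι → List ℕ := fun i => cut A (n i) (b i) (q i)
  have hF' : IsFam n cc q := hF.sub (fun i => suffix_cut A (n i) (hF.suff i))
    (fun i => cut_suffix A (n i) (hF.suff i)) (fun i => List.suffix_refl _)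
  refine le_trans ?_ (hb ι n cc q hF')
  apply Finset.sum_le_sum
  intro i _
  rw [hk, hk, sq_le_sq]
  rcases cut_cases hA (n i) (hF.suff i) with ⟨h1, h2⟩ | ⟨h1, h2, -⟩
  · have e : cc i = b i := h1
    rw [e]
    unfold Kpot
    rw [h2]
    exact abs_phi_sub_le _ _ _ (hsg _ _)
  · have e : cc i = lastA A (n i) (q i) := h1
    rw [e, pot_of_inBar hA hh (inBar_lastA A (n i) (q i)), sub_zero]
    have e2 : Kpot A sg (pot h) (n i) (b i) = 0 := by
      unfold Kpot
      rw [pot_of_inBar hA hh h2]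
      simp
    rw [e2, sub_zero]
    exact abs_Kpot_le A sg (pot h) hsg _ _

theorem exists_good_sign (G τ : ℕ → List ℕ → ℝ) :
    ∃ sg : ℕ → List ℕ → ℝ, (∀ n v, sg n v = 1 ∨ sg n v = -1) ∧
      ∀ n v p, p <:+ v → τ n v < sg n v * (G n v - G n p) →
        ∃ p', p <:+ p' ∧ p' <:+ v ∧ τ n v < -(sg n v * (G n v - G n p')) := by
  classical
  let C : ℕ → List ℕ → Prop := fun n v => ∀ p, p <:+ v → τ n v < G n v - G n p →
    ∃ p', p <:+ p' ∧ p' <:+ v ∧ τ n v < -(G n v - G n p')
  refine ⟨fun n v => if C n v then 1 else -1, ?_, ?_⟩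
  · intro n v
    by_cases h : C n v
    · left; simp [h]
    · right; simp [h]
  · intro n v p hp hlt
    by_cases h : C n v
    · simp only [h, if_true, one_mul] at hlt ⊢
      exact h p hp hlt
    · simp only [h, if_false] at hlt ⊢
      have h' := h
      simp only [C, not_forall] at h'
      obtain ⟨p0, hp0, hp0lt, hno⟩ := h'
      refine ⟨p0, ?_, hp0, by linarith⟩
      rcases List.suffix_or_suffix_of_suffix hp hp0 with h1 | h1
      · exact h1
      · exact absurd ⟨p, h1, hp, by linarith⟩ hno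

/-- `w` is reachable from the vertex `v` of the closure of `A` by an admissible segment off `A` -/
def Valid (A : Finset Nd) (n : ℕ) (v w : List ℕ) : Prop :=
  v <:+ w ∧ lastA A n w = v ∧ w.length ≤ v.length + (n + 1)

theorem exists_witness {A : Finset Nd} (hA : DownClosed A) {h : Nd → ℝ} (hh : ∀ a ∈ A, h a = 0)
    {c : ℝ} (hb : JTBound h c) :
    ∃ wit : ℕ → List ℕ → List ℕ, ∀ n v, InBar A n v → Valid A n v (wit n v) ∧
      ∀ w, Valid A n v w → |pot h n w| ≤ 2 * |pot h n (wit n v)| := by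
  classical
  have key : ∀ n v, InBar A n v → ∃ w0, Valid A n v w0 ∧
      ∀ w, Valid A n v w → |pot h n w| ≤ 2 * |pot h n w0| := by
    intro n v hv
    let S : Set ℝ := {x | ∃ w, Valid A n v w ∧ x = |pot h n w|}
    have hvv : Valid A n v v := ⟨List.suffix_refl _, lastA_of_inBar hv, by omega⟩
    have hne : S.Nonempty := ⟨_, v, hvv, rfl⟩
    have hbd : BddAbove S := by
      refine ⟨|c|, ?_⟩
      rintro x ⟨w, hw, rfl⟩
      have hF : IsFam (ι := Unit) (fun _ => n) (fun _ => v) (fun _ => w) :=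
        { suff := fun _ => hw.1
          adm := fun _ => hw.2.2
          disj := fun i j hij => absurd (Subsingleton.elim i j) hij }
      have := hb Unit _ _ _ hF
      simp only [Finset.univ_unique, Finset.sum_singleton, pot_of_inBar hA hh hv, sub_zero] at this
      exact sq_le_sq.mp this
    by_cases h0 : sSup S ≤ 0
    · refine ⟨v, hvv, ?_⟩
      intro w hw
      have h1 : |pot h n w| ≤ sSup S := le_csSup hbd ⟨w, hw, rfl⟩
      have h2 : 0 ≤ |pot h n v| := abs_nonneg _
      linarith
    · rw [not_le] at h0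
      obtain ⟨x, ⟨w0, hw0, rfl⟩, hx⟩ := exists_lt_of_lt_csSup hne (half_lt_self h0)
      refine ⟨w0, hw0, ?_⟩
      intro w hw
      have h1 : |pot h n w| ≤ sSup S := le_csSup hbd ⟨w, hw, rfl⟩
      linarith
  refine ⟨fun n v => if hv : InBar A n v then (key n v hv).choose else [], ?_⟩
  intro n v hv
  simp only [dif_pos hv]
  exact (key n v hv).choose_spec

/-- the segments `(v i, w i]`, for distinct exit vertices, form a family -/
theorem isFam_of_valid {A : Finset Nd} {ι : Type} (n : ι → ℕ) (v w : ι → List ℕ)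
    (hv : ∀ i, v i = w i ∨ Valid A (n i) (v i) (w i))
    (hne : ∀ i j, i ≠ j → n i = n j → v i ≠ w i → v j ≠ w j → v i ≠ v j)
    (hbar : ∀ i, InBar A (n i) (v i)) :
    IsFam n v w where
  suff i := by
    rcases hv i with h | h
    · rw [h]
    · exact h.1
  adm i := by
    rcases hv i with h | h
    · rw [h]; omega
    · exact h.2.2
  disj i j hij hn u hu1 hu2 hu3 hu4 := by
    have hi : v i ≠ w i := by
      intro h
      have := hu1.length_le
      rw [← h] at this
      omega
    have hj : v j ≠ w j := by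
      intro h
      have := hu3.length_le
      rw [← h] at this
      omega
    have Vi : Valid A (n i) (v i) (w i) := (hv i).resolve_left hi
    have Vj : Valid A (n j) (v j) (w j) := (hv j).resolve_left hj
    have h1 : v i <:+ u := List.suffix_of_suffix_length_le Vi.1 hu1 hu2.le
    have h2 : v j <:+ u := List.suffix_of_suffix_length_le Vj.1 hu3 hu4.le
    have h3 : v j <:+ v i := by
      have hb : InBar A (n i) (v j) := hn ▸ hbar j
      have := suffix_lastA hb (h2.trans hu1)
      rwa [Vi.2.1] at this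
    have h4 : v i <:+ v j := by
      have hb : InBar A (n j) (v i) := hn ▸ hbar i
      have := suffix_lastA hb (h1.trans hu3)
      rwa [Vj.2.1] at this
    exact hne i j hij hn hi hj (h4.eq_of_length_le h3.length_le)

end Vale.Agent.P069
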