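import Vale.Agent.P069.KeyA

namespace Vale.Agent.P069

theorem real_case1 (σ α β κ s : ℝ) (hσ : σ = 1 ∨ σ = -1) (hs : 0 ≤ s) (hβ : 0 ≤ σ * β)
    (hβκ : |β| ≤ κ) (h : σ * α ≤ s * κ) :
    (α + s * β) ^ 2 ≤ α ^ 2 + s ^ 2 * β ^ 2 + 2 * s ^ 2 * κ ^ 2 := by
  have hκ : 0 ≤ κ := (abs_nonneg _).trans hβκ
  have h1 : σ * β ≤ κ := by
    rcases hσ with r | r <;> rw [r] <;> have := abs_le.mp hβκ <;> linarith [this.1, this.2]
  have h2 : α * β = (σ * α) * (σ * β) := by
    rcases hσ with r | r <;> rw [r] <;> ring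
  have h3 : (σ * α) * (σ * β) ≤ (s * κ) * κ := by
    calc (σ * α) * (σ * β) ≤ (s * κ) * (σ * β) := mul_le_mul_of_nonneg_right h hβ
      _ ≤ (s * κ) * κ := mul_le_mul_of_nonneg_left h1 (mul_nonneg hs hκ)
  have h4 : s * (α * β) ≤ s * ((s * κ) * κ) := mul_le_mul_of_nonneg_left (h2 ▸ h3) hs
  nlinarith

theorem real_case2 (σ α α' β κ s : ℝ) (hσ : σ = 1 ∨ σ = -1) (hs : 0 ≤ s) (hβ : 0 ≤ σ * β)
    (hβκ : |β| ≤ κ) (h : s * κ < σ * α) (h' : s * κ < -(σ * α')) :
    (α + s * β) ^ 2 ≤ (α - α') ^ 2 + α' ^ 2 + s ^ 2 * β ^ 2 + 2 * s ^ 2 * κ ^ 2 := by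
  have hκ : 0 ≤ κ := (abs_nonneg _).trans hβκ
  have hsκ : 0 ≤ s * κ := mul_nonneg hs hκ
  have h1 : σ * β ≤ κ := by
    rcases hσ with r | r <;> rw [r] <;> have := abs_le.mp hβκ <;> linarith [this.1, this.2]
  have h2 : α * β = (σ * α) * (σ * β) := by
    rcases hσ with r | r <;> rw [r] <;> ring
  have h2' : -(α * α') = (σ * α) * (-(σ * α')) := by
    rcases hσ with r | r <;> rw [r] <;> ring
  have hα : 0 ≤ σ * α := hsκ.trans h.le
  have h3 : s * (α * β) ≤ (σ * α) * (s * κ) := by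
    rw [h2]
    calc s * ((σ * α) * (σ * β)) = (σ * α) * (s * (σ * β)) := by ring
      _ ≤ (σ * α) * (s * κ) := by
          apply mul_le_mul_of_nonneg_left _ hα
          exact mul_le_mul_of_nonneg_left h1 hs
  have h4 : (σ * α) * (s * κ) ≤ -(α * α') := by
    rw [h2']
    exact mul_le_mul_of_nonneg_left h'.le hα
  nlinarith [sq_nonneg α', sq_nonneg (s * κ)]

theorem main_est {A : Finset Nd} (hA : DownClosed A) {g h k : Nd → ℝ}
    (hg : ∀ a, a ∉ A → g a = 0) (hh : ∀ a ∈ A, h a = 0)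
    (hg1 : JTBound g 1) (hh1 : JTBound h 1) {s : ℝ} (hs : 0 ≤ s)
    (wit : ℕ → List ℕ → List ℕ)
    (hwit : ∀ n v, InBar A n v → Valid A n v (wit n v) ∧
      ∀ w, Valid A n v w → |pot h n w| ≤ 2 * |pot h n (wit n v)|)
    (sg : ℕ → List ℕ → ℝ) (hsg : ∀ n v, sg n v = 1 ∨ sg n v = -1)
    (hgood : ∀ n v p, p <:+ v →
      s * (2 * |pot h n (wit n v)|) < sg n v * (pot g n v - pot g n p) →
        ∃ p', p <:+ p' ∧ p' <:+ v ∧
          s * (2 * |pot h n (wit n v)|) < -(sg n v * (pot g n v - pot g n p')))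
    (hk1 : JTBound k 1)
    (hksign : ∀ n w, 0 ≤ sg n (lastA A n w) * pot k n w)
    (hkabs : ∀ n w, |pot k n w| ≤ |pot h n w|)
    (hkA : ∀ a ∈ A, k a = 0) :
    JTBound (g + s • k) (Real.sqrt (1 + 9 * s ^ 2)) := by
  classical
  intro ι _ n b q hF
  rw [Real.sq_sqrt (by positivity)]
  set v : ι → List ℕ := fun i => lastA A (n i) (q i) with hv
  set κ : ι → ℝ := fun i => 2 * |pot h (n i) (wit (n i) (v i))| with hκ
  set Cr : ι → Prop := fun i => (b i).length < (v i).length with hCr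
  -- the per-index estimate
  have key : ∀ i, ∃ d, b i <:+ d ∧ d <:+ q i ∧
      (pot (g + s • k) (n i) (q i) - pot (g + s • k) (n i) (b i)) ^ 2 ≤
        (pot g (n i) d - pot g (n i) (b i)) ^ 2 + (pot g (n i) (q i) - pot g (n i) d) ^ 2
        + s ^ 2 * (pot k (n i) (q i) - pot k (n i) (b i)) ^ 2
        + 2 * s ^ 2 * (if Cr i then κ i ^ 2 else 0) := by
    intro i
    have e0 : pot (g + s • k) (n i) (q i) - pot (g + s • k) (n i) (b i)
        = (pot g (n i) (q i) - pot g (n i) (b i))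
          + s * (pot k (n i) (q i) - pot k (n i) (b i)) := by
      simp only [pot_add, pot_smul]; ring
    rw [e0]
    have hnn : 0 ≤ 2 * s ^ 2 * (if Cr i then κ i ^ 2 else 0) := by
      split_ifs <;> positivity
    rcases cut_cases hA (n i) (hF.suff i) with ⟨hc, _⟩ | ⟨hc, hbar, hlen⟩
    · -- the segment does not cross
      refine ⟨b i, List.suffix_refl _, hF.suff i, ?_⟩
      have hα : pot g (n i) (q i) = pot g (n i) (b i) := by
        rw [← pot_cut_of_in hg (n i) (hF.suff i), hc]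
      rw [hα]
      nlinarith
    · -- crossing
      have hcr : Cr i := hlen
      have hbv : b i <:+ v i :=
        List.suffix_of_suffix_length_le (hF.suff i) (lastA_suffix A (n i) (q i)) hlen.le
      have hkb : pot k (n i) (b i) = 0 := pot_of_inBar hA hkA hbar
      have hgq : pot g (n i) (q i) = pot g (n i) (v i) := (pot_lastA hg (n i) (q i)).symm
      have hvalid : Valid A (n i) (v i) (q i) := by
        refine ⟨lastA_suffix A (n i) (q i), rfl, ?_⟩
        have := hF.adm i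
        omega
      have hβκ : |pot k (n i) (q i) - pot k (n i) (b i)| ≤ κ i := by
        rw [hkb, sub_zero]
        exact (hkabs _ _).trans ((hwit (n i) (v i) (inBar_lastA A (n i) (q i))).2 _ hvalid)
      have hβs : 0 ≤ sg (n i) (v i) * (pot k (n i) (q i) - pot k (n i) (b i)) := by
        rw [hkb, sub_zero]
        exact hksign (n i) (q i)
      simp only [hcr, if_true]
      by_cases hbig : s * κ i < sg (n i) (v i) * (pot g (n i) (v i) - pot g (n i) (b i))
      · obtain ⟨p', hp1, hp2, hp3⟩ := hgood (n i) (v i) (b i) hbv hbig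
        refine ⟨p', hp1, hp2.trans (lastA_suffix A (n i) (q i)), ?_⟩
        have := real_case2 (sg (n i) (v i)) (pot g (n i) (v i) - pot g (n i) (b i))
          (pot g (n i) (v i) - pot g (n i) p') (pot k (n i) (q i) - pot k (n i) (b i)) (κ i) s
          (hsg _ _) hs hβs hβκ hbig hp3
        rw [hgq]
        have e1 : pot g (n i) (v i) - pot g (n i) (b i) - (pot g (n i) (v i) - pot g (n i) p')
            = pot g (n i) p' - pot g (n i) (b i) := by ring
        rw [e1] at this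
        exact this
      · refine ⟨b i, List.suffix_refl _, hF.suff i, ?_⟩
        have := real_case1 (sg (n i) (v i)) (pot g (n i) (v i) - pot g (n i) (b i))
          (pot k (n i) (q i) - pot k (n i) (b i)) (κ i) s (hsg _ _) hs hβs hβκ (not_lt.mp hbig)
        rw [hgq]
        simp only [sub_self, ne_eq, OfNat.ofNat_ne_zero, not_false_eq_true, zero_pow, zero_add]
        exact this
  choose d hd1 hd2 hd3 using key
  -- first sum
  have S1 : ∑ i, ((pot g (n i) (d i) - pot g (n i) (b i)) ^ 2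
      + (pot g (n i) (q i) - pot g (n i) (d i)) ^ 2) ≤ 1 := by
    have := hg1 (ι ⊕ ι) _ _ _ (hF.split hd1 hd2)
    rw [Fintype.sum_sum_type] at this
    simp only [Sum.elim_inl, Sum.elim_inr, one_pow] at this
    rw [Finset.sum_add_distrib]
    exact this
  -- second sum
  have S2 : ∑ i, (pot k (n i) (q i) - pot k (n i) (b i)) ^ 2 ≤ 1 := by
    simpa using hk1 ι n b q hF
  -- third sum
  have S3 : ∑ i, (if Cr i then κ i ^ 2 else 0) ≤ 4 := by
    set w : ι → List ℕ := fun i => if Cr i then wit (n i) (v i) else v i with hw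
    have hfam : IsFam n v w := by
      apply isFam_of_valid (A := A) n v w
      · intro i
        by_cases hc : Cr i
        · right
          simp only [hw, hc, if_true]
          exact (hwit (n i) (v i) (inBar_lastA A (n i) (q i))).1
        · left
          simp only [hw, hc, if_false]
      · intro i j hij hn hi hj hvv
        have hci : Cr i := by
          by_contra hc
          exact hi (by simp only [hw, hc, if_false])
        have hcj : Cr j := by
          by_contra hc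
          exact hj (by simp only [hw, hc, if_false])
        refine hF.disj i j hij hn (v i) (lastA_suffix A (n i) (q i)) hci ?_ ?_
        · rw [hvv]; exact lastA_suffix A (n j) (q j)
        · rw [hvv]; exact hcj
      · intro i
        exact inBar_lastA A (n i) (q i)
    have h1 := hh1 ι n v w hfam
    have h2 : ∀ i, (if Cr i then κ i ^ 2 else 0)
        = 4 * (pot h (n i) (w i) - pot h (n i) (v i)) ^ 2 := by
      intro i
      have hz : pot h (n i) (v i) = 0 := pot_of_inBar hA hh (inBar_lastA A (n i) (q i))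
      by_cases hc : Cr i
      · simp only [hw, hc, if_true, hz, sub_zero, hκ]
        rw [mul_pow, sq_abs]; norm_num
      · simp only [hw, hc, if_false, sub_self]
        norm_num
    simp only [h2, ← Finset.mul_sum]
    simp only [one_pow] at h1
    linarith
  calc ∑ i, (pot (g + s • k) (n i) (q i) - pot (g + s • k) (n i) (b i)) ^ 2
      ≤ ∑ i, ((pot g (n i) (d i) - pot g (n i) (b i)) ^ 2
        + (pot g (n i) (q i) - pot g (n i) (d i)) ^ 2
        + s ^ 2 * (pot k (n i) (q i) - pot k (n i) (b i)) ^ 2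
        + 2 * s ^ 2 * (if Cr i then κ i ^ 2 else 0)) := Finset.sum_le_sum fun i _ => hd3 i
    _ = ∑ i, ((pot g (n i) (d i) - pot g (n i) (b i)) ^ 2
        + (pot g (n i) (q i) - pot g (n i) (d i)) ^ 2)
        + s ^ 2 * ∑ i, (pot k (n i) (q i) - pot k (n i) (b i)) ^ 2
        + 2 * s ^ 2 * ∑ i, (if Cr i then κ i ^ 2 else 0) := by
        rw [Finset.mul_sum, Finset.mul_sum, ← Finset.sum_add_distrib, ← Finset.sum_add_distrib]
    _ ≤ 1 + s ^ 2 * 1 + 2 * s ^ 2 * 4 := by
        have hs2 : 0 ≤ s ^ 2 := sq_nonneg s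
        gcongr
    _ = 1 + 9 * s ^ 2 := by ring
theorem key_lemma {A : Finset Nd} (hA : DownClosed A) (g h : Nd →₀ ℝ)
    (hg : ∀ a, a ∉ A → g a = 0) (hh : ∀ a ∈ A, h a = 0)
    (hg1 : JTBound g 1) (hh1 : JTBound h 1) (s : ℝ) (hs : 0 ≤ s) :
    ∃ kp km : Nd →₀ ℝ, kp - km = h ∧ (∀ a ∈ A, kp a = 0) ∧ (∀ a ∈ A, km a = 0) ∧
      JTBound kp 1 ∧ JTBound km 1 ∧
      JTBound (g + s • kp : Nd →₀ ℝ) (Real.sqrt (1 + 9 * s ^ 2)) ∧
      JTBound (g + s • km : Nd →₀ ℝ) (Real.sqrt (1 + 9 * s ^ 2)) := by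
  obtain ⟨wit, hwit⟩ := exists_witness hA hh hh1
  obtain ⟨sg, hsg, hgood⟩ := exists_good_sign (pot g)
    (fun n v => s * (2 * |pot h n (wit n v)|))
  have hh' : ∀ a ∈ A, (-h) a = 0 := fun a ha => by simp [hh a ha]
  obtain ⟨kp, hkpA, hkp⟩ := exists_kfun hA sg h hh
  obtain ⟨km, hkmA, hkm⟩ := exists_kfun hA sg (-h) hh'
  have hneg : ∀ n w, pot (-h : Nd →₀ ℝ) n w = - pot h n w := by
    intro n w
    rw [Finsupp.coe_neg, pot_neg]
  have hnegf : pot (-h : Nd →₀ ℝ) = fun n w => - pot h n w := by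
    funext n w
    exact hneg n w
  have hh1' : JTBound (-h : Nd →₀ ℝ) 1 := by
    have := hh1.smul (-1)
    simpa using this
  have hkp1 : JTBound kp 1 := JTBound_of_pot_eq_Kpot hA sg hsg hh hh1 hkp
  have hkm1 : JTBound km 1 := JTBound_of_pot_eq_Kpot hA sg hsg hh' hh1' hkm
  refine ⟨kp, km, ?_, hkpA, hkmA, hkp1, hkm1, ?_, ?_⟩
  · apply DFunLike.coe_injective
    apply eq_of_pot_eq
    intro n w
    rw [Finsupp.coe_sub, pot_sub, hkp, hkm, hnegf]
    exact Kpot_sub_Kpot_neg A sg (pot h) hsg n w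
  · rw [Finsupp.coe_add, Finsupp.coe_smul]
    apply main_est hA hg hh hg1 hh1 hs wit hwit sg hsg hgood hkp1 _ _ hkpA
    · intro n w
      rw [hkp]
      exact sg_mul_Kpot_nonneg A sg _ n w
    · intro n w
      rw [hkp]
      exact abs_Kpot_le A sg _ hsg n w
  · rw [Finsupp.coe_add, Finsupp.coe_smul]
    apply main_est hA hg hh hg1 hh1 hs wit hwit sg hsg hgood hkm1 _ _ hkmA
    · intro n w
      rw [hkm]
      exact sg_mul_Kpot_nonneg A sg _ n w
    · intro n w
      rw [hkm]
      have := abs_Kpot_le A sg (pot (-h : Nd →₀ ℝ)) hsg n w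
      rw [hneg, abs_neg] at this
      exact this

end Vale.Agent.P069
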