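import Mathlib

namespace Vale.Agent.P069

open MeasureTheory Set

/-- Lebesgue measure of the part of `G` in `(0, z]`. -/
noncomputable def lay (G : Set ℝ) (z : ℝ) : ℝ := (volume (G ∩ Ioc 0 z)).toReal

theorem lay_ne_top (G : Set ℝ) (z : ℝ) : volume (G ∩ Ioc 0 z) ≠ ⊤ :=
  ne_top_of_le_ne_top (by simp) (measure_mono (inter_subset_right (s := G) (t := Ioc 0 z)))

theorem lay_nonneg (G : Set ℝ) (z : ℝ) : 0 ≤ lay G z := ENNReal.toReal_nonneg

theorem lay_mono (G : Set ℝ) : Monotone (lay G) := by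
  intro z z' h
  unfold lay
  exact ENNReal.toReal_mono (lay_ne_top G z')
    (measure_mono (inter_subset_inter_right G (Ioc_subset_Ioc_right h)))

theorem lay_le_of_subset {G : Set ℝ} {z β : ℝ} (hβ : 0 ≤ β) (h : G ∩ Ioc 0 z ⊆ Ioc 0 β) :
    lay G z ≤ β := by
  unfold lay
  have h1 : volume (G ∩ Ioc 0 z) ≤ volume (Ioc 0 β) := measure_mono h
  have h2 : (volume (Ioc 0 β)).toReal = β := by simp [hβ]
  rw [← h2]
  exact ENNReal.toReal_mono (by simp) h1

theorem lay_le (G : Set ℝ) {z : ℝ} (hz : 0 ≤ z) : lay G z ≤ z :=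
  lay_le_of_subset hz inter_subset_right

theorem lay_of_nonpos (G : Set ℝ) {z : ℝ} (hz : z ≤ 0) : lay G z = 0 := by
  unfold lay
  rw [Ioc_eq_empty (not_lt.mpr hz)]
  simp

theorem lay_add_compl {G : Set ℝ} (hG : MeasurableSet G) {z : ℝ} (hz : 0 ≤ z) :
    lay G z + lay Gᶜ z = z := by
  unfold lay
  rw [← ENNReal.toReal_add (lay_ne_top G z) (lay_ne_top Gᶜ z)]
  have h1 : volume (G ∩ Ioc 0 z) + volume (Gᶜ ∩ Ioc 0 z) = volume (Ioc 0 z) := by
    rw [inter_comm G, inter_comm Gᶜ, ← sdiff_eq]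
    exact measure_inter_add_sdiff _ hG
  rw [h1]
  simp [hz]

/-- levels `r > 0` whose first exceedance by `|a i|` (`i ≤ k`) happens with `a i > 0`. -/
def posLevels (k : ℕ) (a : ℕ → ℝ) : Set ℝ :=
  {r | ∃ i ≤ k, r ≤ a i ∧ ∀ j < i, |a j| < r}

theorem measurableSet_posLevels (k : ℕ) (a : ℕ → ℝ) : MeasurableSet (posLevels k a) := by
  have : posLevels k a = ⋃ i ∈ Finset.range (k + 1),
      (Iic (a i) ∩ ⋂ j ∈ Finset.range i, Ioi |a j|) := by
    ext r
    simp only [posLevels, mem_ofPred_eq, Finset.mem_range, mem_iUnion, mem_inter_iff, mem_Iic,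
      mem_iInter, mem_Ioi, exists_prop, Nat.lt_succ_iff]
  rw [this]
  refine Finset.measurableSet_biUnion _ fun i _ => measurableSet_Iic.inter ?_
  exact Finset.measurableSet_biInter _ fun j _ => measurableSet_Ioi

/-- If level `r` is exceeded at `i` then the first exceedance is at some `i' ≤ i`. -/
theorem exists_first_exceed (a : ℕ → ℝ) {r : ℝ} {i : ℕ} (hi : r ≤ |a i|) :
    ∃ i' ≤ i, r ≤ |a i'| ∧ ∀ j < i', |a j| < r := by
  classical
  have hex : ∃ n, r ≤ |a n| := ⟨i, hi⟩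
  refine ⟨Nat.find hex, Nat.find_min' hex hi, Nat.find_spec hex, fun j hj => ?_⟩
  exact not_le.mp (Nat.find_min hex hj)

/-- the maximum of `-a j` over `j < i` is attained (or everything is trivial). -/
theorem exists_max_neg (a : ℕ → ℝ) (i : ℕ) (hi : 0 < i) :
    ∃ j < i, ∀ j' < i, - a j' ≤ - a j := by
  have hne : (Finset.range i).Nonempty := ⟨0, Finset.mem_range.mpr hi⟩
  obtain ⟨j, hj, hmax⟩ := Finset.exists_max_image (Finset.range i) (fun j => - a j) hne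
  exact ⟨j, Finset.mem_range.mp hj, fun j' hj' => hmax j' (Finset.mem_range.mpr hj')⟩

/-- Main estimate, positive levels, good part. -/
theorem sq_add_lay_compl_le (k : ℕ) (a : ℕ → ℝ) (h0 : a 0 = 0) {i : ℕ} (hi : i ≤ k) {z : ℝ}
    (hz : 0 ≤ z) :
    ∃ j ≤ i, (a i + lay (posLevels k a)ᶜ z) ^ 2 ≤ (a i - a j) ^ 2 + (a j) ^ 2 + 3 * z ^ 2 := by
  set ζ := lay (posLevels k a)ᶜ z with hζ
  have hζ0 : 0 ≤ ζ := lay_nonneg _ _
  have hζz : ζ ≤ z := lay_le _ hz
  by_cases h1 : a i ≤ z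
  · refine ⟨0, Nat.zero_le _, ?_⟩
    rw [h0]
    by_cases h2 : a i ≤ 0
    · nlinarith [mul_nonneg hζ0 (neg_nonneg.mpr h2), mul_nonneg hζ0 (sub_nonneg.mpr hζz)]
    · push Not at h2
      nlinarith [mul_nonneg hζ0 (sub_nonneg.mpr hζz), mul_nonneg h2.le (sub_nonneg.mpr hζz),
        mul_nonneg hz (sub_nonneg.mpr h1), mul_nonneg hζ0 (sub_nonneg.mpr h1)]
  · push Not at h1
    have hipos : 0 < i := by
      rcases Nat.eq_zero_or_pos i with h | h
      · subst h; rw [h0] at h1; exact absurd h1 (not_lt.mpr hz)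
      · exact h
    obtain ⟨j, hj, hmax⟩ := exists_max_neg a i hipos
    have hβ0 : 0 ≤ - a j := by
      have := hmax 0 hipos
      rwa [h0, neg_zero] at this
    have hsub : (posLevels k a)ᶜ ∩ Ioc 0 z ⊆ Ioc 0 (- a j) := by
      rintro r ⟨hr, hr0, hrz⟩
      refine ⟨hr0, ?_⟩
      have hex : r ≤ |a i| := (hrz.trans h1.le).trans (le_abs_self _)
      obtain ⟨i', hi', hr', hfirst⟩ := exists_first_exceed a hex
      have hneg : ¬ r ≤ a i' := fun hpos => hr ⟨i', hi'.trans hi, hpos, hfirst⟩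
      have hle : r ≤ - a i' := by
        rcases le_abs'.mp hr' with h | h
        · linarith
        · exact absurd h hneg
      have hne : i' ≠ i := by
        rintro rfl
        exact hneg (hrz.trans h1.le)
      exact hle.trans (hmax i' (lt_of_le_of_ne hi' hne))
    have hζβ : ζ ≤ - a j := lay_le_of_subset hβ0 hsub
    refine ⟨j, hj.le, ?_⟩
    have hai : 0 < a i := lt_of_le_of_lt hz h1
    nlinarith [mul_nonneg hai.le (sub_nonneg.mpr hζβ), mul_nonneg hζ0 (sub_nonneg.mpr hζz),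
      sq_nonneg (a j), mul_nonneg hζ0 hz]

/-- Main estimate, positive levels, bad part (used with the opposite sign). -/
theorem sq_sub_lay_le (k : ℕ) (a : ℕ → ℝ) (h0 : a 0 = 0) {i : ℕ} (hi : i ≤ k) {z : ℝ}
    (hz : 0 ≤ z) :
    ∃ j ≤ i, (a i - lay (posLevels k a) z) ^ 2 ≤ (a i - a j) ^ 2 + (a j) ^ 2 + 3 * z ^ 2 := by
  set ζ := lay (posLevels k a) z with hζ
  have hζ0 : 0 ≤ ζ := lay_nonneg _ _
  have hζz : ζ ≤ z := lay_le _ hz
  by_cases h1 : - a i ≤ z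
  · refine ⟨0, Nat.zero_le _, ?_⟩
    rw [h0]
    by_cases h2 : 0 ≤ a i
    · nlinarith [mul_nonneg hζ0 h2, mul_nonneg hζ0 (sub_nonneg.mpr hζz)]
    · push Not at h2
      nlinarith [mul_nonneg hζ0 (sub_nonneg.mpr hζz), mul_nonneg (neg_nonneg.mpr h2.le) (sub_nonneg.mpr hζz),
        mul_nonneg hz (sub_nonneg.mpr h1), mul_nonneg hζ0 (sub_nonneg.mpr h1)]
  · push Not at h1
    have hipos : 0 < i := by
      rcases Nat.eq_zero_or_pos i with h | h
      · subst h; rw [h0, neg_zero] at h1; exact absurd h1 (not_lt.mpr hz)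
      · exact h
    obtain ⟨j, hj, hmax⟩ := exists_max_neg (fun n => - a n) i hipos
    simp only [neg_neg] at hmax
    have hβ0 : 0 ≤ a j := by
      have := hmax 0 hipos
      rwa [h0] at this
    have hsub : posLevels k a ∩ Ioc 0 z ⊆ Ioc 0 (a j) := by
      rintro r ⟨⟨i', _, hr', hfirst⟩, hr0, hrz⟩
      refine ⟨hr0, ?_⟩
      have hlt : i' < i := by
        by_contra hcon
        push Not at hcon
        rcases lt_or_eq_of_le hcon with h | h
        · have := hfirst i h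
          have h3 : r < |a i| := lt_of_le_of_lt hrz (lt_of_lt_of_le h1 (neg_le_abs _))
          linarith
        · subst h
          linarith
      exact hr'.trans (hmax i' hlt)
    have hζβ : ζ ≤ a j := lay_le_of_subset hβ0 hsub
    refine ⟨j, hj.le, ?_⟩
    have hai : 0 < - a i := lt_of_le_of_lt hz h1
    nlinarith [mul_nonneg hai.le (sub_nonneg.mpr hζβ), mul_nonneg hζ0 (sub_nonneg.mpr hζz),
      sq_nonneg (a j), mul_nonneg hζ0 hz]

/-- The two level transforms. -/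
noncomputable def lam1 (k : ℕ) (a : ℕ → ℝ) (s : ℝ) : ℝ :=
  lay (posLevels k a)ᶜ s - lay (posLevels k (fun n => - a n))ᶜ (-s)

noncomputable def lam2 (k : ℕ) (a : ℕ → ℝ) (s : ℝ) : ℝ :=
  lay (posLevels k a) s - lay (posLevels k (fun n => - a n)) (-s)

theorem lam1_mono (k : ℕ) (a : ℕ → ℝ) : Monotone (lam1 k a) := by
  intro s s' h
  unfold lam1
  have h1 := lay_mono (posLevels k a)ᶜ h
  have h2 := lay_mono (posLevels k (fun n => - a n))ᶜ (neg_le_neg h)
  linarith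

theorem lam2_mono (k : ℕ) (a : ℕ → ℝ) : Monotone (lam2 k a) := by
  intro s s' h
  unfold lam2
  have h1 := lay_mono (posLevels k a) h
  have h2 := lay_mono (posLevels k (fun n => - a n)) (neg_le_neg h)
  linarith

theorem lam1_add_lam2 (k : ℕ) (a : ℕ → ℝ) (s : ℝ) : lam1 k a s + lam2 k a s = s := by
  unfold lam1 lam2
  rcases le_total 0 s with h | h
  · have h1 := lay_add_compl (measurableSet_posLevels k a) h
    rw [lay_of_nonpos _ (neg_nonpos.mpr h), lay_of_nonpos _ (neg_nonpos.mpr h)]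
    linarith
  · have h1 := lay_add_compl (measurableSet_posLevels k (fun n => - a n)) (neg_nonneg.mpr h)
    rw [lay_of_nonpos _ h, lay_of_nonpos _ h]
    linarith

theorem lam1_zero (k : ℕ) (a : ℕ → ℝ) : lam1 k a 0 = 0 := by
  unfold lam1
  rw [neg_zero, lay_of_nonpos _ le_rfl, lay_of_nonpos _ le_rfl, sub_zero]

theorem lam2_zero (k : ℕ) (a : ℕ → ℝ) : lam2 k a 0 = 0 := by
  have := lam1_add_lam2 k a 0
  rw [lam1_zero] at this
  linarith

theorem lam1_est (k : ℕ) (a : ℕ → ℝ) (h0 : a 0 = 0) {i : ℕ} (hi : i ≤ k) (s : ℝ) :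
    ∃ j ≤ i, (a i + lam1 k a s) ^ 2 ≤ (a i - a j) ^ 2 + (a j) ^ 2 + 3 * s ^ 2 := by
  unfold lam1
  rcases le_total 0 s with h | h
  · rw [lay_of_nonpos _ (neg_nonpos.mpr h), sub_zero]
    exact sq_add_lay_compl_le k a h0 hi h
  · rw [lay_of_nonpos _ h, zero_sub]
    obtain ⟨j, hj, hh⟩ := sq_add_lay_compl_le k (fun n => - a n) (by simp [h0]) hi (neg_nonneg.mpr h)
    refine ⟨j, hj, ?_⟩
    nlinarith [hh]

theorem lam2_est (k : ℕ) (a : ℕ → ℝ) (h0 : a 0 = 0) {i : ℕ} (hi : i ≤ k) (s : ℝ) :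
    ∃ j ≤ i, (a i - lam2 k a s) ^ 2 ≤ (a i - a j) ^ 2 + (a j) ^ 2 + 3 * s ^ 2 := by
  unfold lam2
  rcases le_total 0 s with h | h
  · rw [lay_of_nonpos _ (neg_nonpos.mpr h), sub_zero]
    exact sq_sub_lay_le k a h0 hi h
  · rw [lay_of_nonpos _ h, zero_sub]
    obtain ⟨j, hj, hh⟩ := sq_sub_lay_le k (fun n => - a n) (by simp [h0]) hi (neg_nonneg.mpr h)
    refine ⟨j, hj, ?_⟩
    nlinarith [hh]

/-- **Path lemma.** For terminal sums `a 0 = 0, a 1, …, a k` there are monotone maps `Λ₁ + Λ₂ = id`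
vanishing at `0` such that attaching the level `Λ₁ s` (resp. `- Λ₂ s`) to the terminal sum `a i` costs
at most `3 s ^ 2` after splitting the terminal segment in at most two pieces. -/
theorem path_lemma (k : ℕ) (a : ℕ → ℝ) (h0 : a 0 = 0) :
    ∃ Λ₁ Λ₂ : ℝ → ℝ, Monotone Λ₁ ∧ Monotone Λ₂ ∧ (∀ s, Λ₁ s + Λ₂ s = s) ∧ Λ₁ 0 = 0 ∧ Λ₂ 0 = 0 ∧
      (∀ i ≤ k, ∀ s, ∃ j ≤ i, (a i + Λ₁ s) ^ 2 ≤ (a i - a j) ^ 2 + (a j) ^ 2 + 3 * s ^ 2) ∧
      (∀ i ≤ k, ∀ s, ∃ j ≤ i, (a i - Λ₂ s) ^ 2 ≤ (a i - a j) ^ 2 + (a j) ^ 2 + 3 * s ^ 2) :=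
  ⟨lam1 k a, lam2 k a, lam1_mono k a, lam2_mono k a, lam1_add_lam2 k a, lam1_zero k a, lam2_zero k a,
    fun _ hi s => lam1_est k a h0 hi s, fun _ hi s => lam2_est k a h0 hi s⟩

end Vale.Agent.P069
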