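import Vale.Agent.P069.Defs

namespace Vale.Agent.P069

theorem reflexive_dual_of_dense {Y : Type*} [NormedAddCommGroup Y] [NormedSpace ℝ Y]
    (h : ∀ Φ : StrongDual ℝ (StrongDual ℝ Y), ∀ η : ℝ, 0 < η →
      ∃ g : Y, ‖Φ - NormedSpace.inclusionInDoubleDual ℝ Y g‖ ≤ η) :
    IsReflexiveSpace (StrongDual ℝ Y) := by
  intro Ψ
  set x : StrongDual ℝ Y := Ψ.comp (NormedSpace.inclusionInDoubleDual ℝ Y) with hx
  refine ⟨x, ?_⟩
  ext Φ
  rw [NormedSpace.dual_def]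
  have key : ∀ η : ℝ, 0 < η → |Φ x - Ψ Φ| ≤ η * (‖x‖ + ‖Ψ‖) := by
    intro η hη
    obtain ⟨g, hg⟩ := h Φ η hη
    have e1 : (NormedSpace.inclusionInDoubleDual ℝ Y g) x
        = Ψ (NormedSpace.inclusionInDoubleDual ℝ Y g) := by
      rw [NormedSpace.dual_def, hx]; rfl
    have e2 : Φ x - Ψ Φ = (Φ - NormedSpace.inclusionInDoubleDual ℝ Y g) x
        - Ψ (Φ - NormedSpace.inclusionInDoubleDual ℝ Y g) := by
      rw [sub_apply, map_sub, e1]; ring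
    rw [e2]
    have b1 : |(Φ - NormedSpace.inclusionInDoubleDual ℝ Y g) x| ≤ η * ‖x‖ := by
      have := (Φ - NormedSpace.inclusionInDoubleDual ℝ Y g).le_opNorm x
      rw [Real.norm_eq_abs] at this
      exact this.trans (mul_le_mul_of_nonneg_right hg (norm_nonneg _))
    have b2 : |Ψ (Φ - NormedSpace.inclusionInDoubleDual ℝ Y g)| ≤ η * ‖Ψ‖ := by
      have := Ψ.le_opNorm (Φ - NormedSpace.inclusionInDoubleDual ℝ Y g)
      rw [Real.norm_eq_abs] at this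
      calc _ ≤ ‖Ψ‖ * ‖Φ - NormedSpace.inclusionInDoubleDual ℝ Y g‖ := this
        _ ≤ ‖Ψ‖ * η := mul_le_mul_of_nonneg_left hg (norm_nonneg Ψ)
        _ = η * ‖Ψ‖ := mul_comm _ _
    calc _ ≤ |(Φ - NormedSpace.inclusionInDoubleDual ℝ Y g) x|
          + |Ψ (Φ - NormedSpace.inclusionInDoubleDual ℝ Y g)| := abs_sub _ _
      _ ≤ η * ‖x‖ + η * ‖Ψ‖ := add_le_add b1 b2
      _ = η * (‖x‖ + ‖Ψ‖) := by ring
  have hzero : |Φ x - Ψ Φ| ≤ 0 := by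
    apply le_of_forall_pos_le_add
    intro ε hε
    have hpos : 0 < ‖x‖ + ‖Ψ‖ + 1 := by positivity
    have := key (ε / (‖x‖ + ‖Ψ‖ + 1)) (div_pos hε hpos)
    calc |Φ x - Ψ Φ| ≤ ε / (‖x‖ + ‖Ψ‖ + 1) * (‖x‖ + ‖Ψ‖) := this
      _ ≤ ε / (‖x‖ + ‖Ψ‖ + 1) * (‖x‖ + ‖Ψ‖ + 1) := by
          apply mul_le_mul_of_nonneg_left (by linarith) (div_pos hε hpos).le
      _ = ε := div_mul_cancel₀ _ hpos.ne'
      _ = 0 + ε := by ring
  have := abs_nonpos_iff.mp hzero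
  linarith

end Vale.Agent.P069
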