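import Vale.Agent.P069.Shrink
import Vale.Agent.P069.ReflDual

namespace Vale.Agent.P069

open Filter Topology

/- TASK G2 -/

theorem resLin_mem_eq_sum (A : Finset Nd) (h : JT) :
    resLin (fun a => a ∈ A) h = ∑ a ∈ A, toFs h a • ofFs (Finsupp.single a 1) := by
  classical
  apply toFs.injective
  ext b
  rw [toFs_resLin, map_sum, Finsupp.finsetSum_apply]
  simp only [map_smul, toFs_ofFs, Finsupp.smul_apply, smul_eq_mul, Finsupp.single_apply]
  by_cases hb : b ∈ A
  · rw [if_pos hb, Finset.sum_eq_single b]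
    · simp
    · intro a _ hab
      simp [hab]
    · intro h'; exact absurd hb h'
  · rw [if_neg hb]
    symm
    apply Finset.sum_eq_zero
    intro a ha
    have : a ≠ b := fun e => hb (e ▸ ha)
    simp [this]

theorem comp_resC_mem_eq_sum {A : Finset Nd} (hA : DownClosed A) (y : StrongDual ℝ JT) :
    y.comp (resC (fun a => a ∈ A) (norm_resLin_mem_le hA))
      = ∑ a ∈ A, y (ofFs (Finsupp.single a 1)) • coordF a := by
  ext h
  rw [ContinuousLinearMap.comp_apply, resC_apply, resLin_mem_eq_sum, map_sum,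
    sum_apply]
  apply Finset.sum_congr rfl
  intro a _
  rw [map_smul, smul_apply, coordF_apply, smul_eq_mul, smul_eq_mul, mul_comm]

theorem resI_single (I : Set ℕ) (a : Nd) :
    resI I (ofFs (Finsupp.single a 1)) = open Classical in
      if a.1 ∈ I then ofFs (Finsupp.single a 1) else 0 := by
  classical
  apply toFs.injective
  ext b
  rw [resI, resC_apply, toFs_resLin]
  by_cases hab : a = b
  · subst hab
    by_cases ha : a.1 ∈ I
    · simp [ha]
    · simp [ha]
  · by_cases ha : a.1 ∈ I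
    · simp [ha, hab]
    · simp [ha, hab]

theorem dense_in_bidual (Φ : StrongDual ℝ (StrongDual ℝ JT)) (η : ℝ) (hη : 0 < η) :
    ∃ g : JT, ‖Φ - NormedSpace.inclusionInDoubleDual ℝ JT g‖ ≤ η := by
  classical
  obtain ⟨M, hM⟩ := tail_dual Φ (η / 2) (by positivity)
  set φ : Nd → ℝ := fun a => Φ (coordF a) with hφ
  have hsum : Summable (fun a => φ a ^ 2) :=
    summable_of_sum_le (fun a => sq_nonneg _) (fun s => sum_sq_apply_coordF_le Φ s)
  have hM1 : (0 : ℝ) < (M : ℝ) + 1 := by positivity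
  set θ : ℝ := η / (2 * Real.sqrt ((M : ℝ) + 1)) with hθ
  have hθpos : 0 < θ := by positivity
  obtain ⟨A1, hA1⟩ : ∃ A1 : Finset Nd, ∀ s : Finset Nd, Disjoint s A1 →
      ∑ a ∈ s, φ a ^ 2 ≤ θ ^ 2 := by
    obtain ⟨A1, h⟩ := summable_iff_vanishing_norm.1 hsum (θ ^ 2) (by positivity)
    refine ⟨A1, fun s hs => ?_⟩
    have := h s hs
    rw [Real.norm_eq_abs] at this
    exact (le_abs_self _).trans this.le
  set B : Finset Nd := A1.filter (fun a => a.1 < M) with hB
  set u : Nd → JT := fun a => ofFs (Finsupp.single a 1) with hu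
  refine ⟨∑ a ∈ B, φ a • u a, ?_⟩
  apply ContinuousLinearMap.opNorm_le_bound _ hη.le
  intro x
  rw [sub_apply, NormedSpace.dual_def, Real.norm_eq_abs]
  set f : Nd → ℝ := fun a => x (u a) with hf
  have hxg : x (∑ a ∈ B, φ a • u a) = ∑ a ∈ B, f a * φ a := by
    rw [map_sum]
    apply Finset.sum_congr rfl
    intro a _
    rw [map_smul, smul_eq_mul, mul_comm]
  set x0 : StrongDual ℝ JT := x.comp (resI (Set.Ici M)) with hx0
  set x1 : StrongDual ℝ JT := x.comp (resI (Set.Ici M)ᶜ) with hx1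
  have hsplit : x = x1 + x0 := by
    ext h
    rw [add_apply, hx1, hx0, ContinuousLinearMap.comp_apply,
      ContinuousLinearMap.comp_apply, ← map_add, resI_add_resI_compl]
  have hx1u : ∀ a, x1 (u a) = if a.1 < M then f a else 0 := by
    intro a
    rw [hx1, ContinuousLinearMap.comp_apply, hu]
    simp only
    rw [resI_single]
    by_cases ha : a.1 < M
    · have : a.1 ∈ (Set.Ici M)ᶜ := by simpa using ha
      rw [if_pos this, if_pos ha]
    · have : a.1 ∉ (Set.Ici M)ᶜ := by simpa using ha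
      rw [if_neg this, if_neg ha, map_zero]
  have h0 : |Φ x0| ≤ η / 2 * ‖x‖ := hM x
  -- main estimate for every positive slack
  have hmain : ∀ θ' : ℝ, 0 < θ' → |Φ x - x (∑ a ∈ B, φ a • u a)| ≤ η * ‖x‖ + ‖Φ‖ * θ' := by
    intro θ' hθ'
    obtain ⟨A', hBA, hA'd, hA'⟩ := shrinking x1 θ' hθ' B
    set x2 : StrongDual ℝ JT := x1.comp (resC (fun a => a ∈ A') (norm_resLin_mem_le hA'd)) with hx2
    have hsmall : ‖x1 - x2‖ ≤ θ' := by
      apply ContinuousLinearMap.opNorm_le_bound _ hθ'.le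
      intro h
      have e : (x1 - x2) h = x1 (resLin (fun a => a ∉ A') h) := by
        have e2 : x2 h = x1 (resLin (fun a => a ∈ A') h) := rfl
        have e3 : (x1 - x2) h = x1 h - x2 h := rfl
        rw [e3, e2, ← map_sub]
        congr 1
        have := resLin_add_resLin_not (fun a => a ∈ A') h
        rw [sub_eq_iff_eq_add, add_comm]
        exact this.symm
      rw [e, Real.norm_eq_abs]
      have h1 := hA' (resLin (fun a => a ∉ A') h) (by
        intro a ha
        rw [toFs_resLin, if_neg (not_not.mpr ha)])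
      exact h1.trans (mul_le_mul_of_nonneg_left (norm_resLin_not_mem_le hA'd h) hθ'.le)
    have hΦx2 : Φ x2 = ∑ a ∈ A'.filter (fun a => a.1 < M), f a * φ a := by
      rw [hx2, comp_resC_mem_eq_sum hA'd, map_sum, Finset.sum_filter]
      apply Finset.sum_congr rfl
      intro a _
      rw [map_smul, smul_eq_mul]
      have := hx1u a
      simp only [hu] at this
      rw [this]
      by_cases ha : a.1 < M
      · simp [ha, hφ]
      · simp [ha]
    set S : Finset Nd := (A'.filter (fun a => a.1 < M)) \ B with hS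
    have hBsub : B ⊆ A'.filter (fun a => a.1 < M) := by
      intro a ha
      rw [Finset.mem_filter]
      exact ⟨hBA ha, (Finset.mem_filter.1 ha).2⟩
    have hdiff : Φ x2 - x (∑ a ∈ B, φ a • u a) = ∑ a ∈ S, f a * φ a := by
      rw [hΦx2, hxg, hS, ← Finset.sum_sdiff hBsub]
      ring
    have hSdisj : Disjoint S A1 := by
      rw [Finset.disjoint_left]
      intro a haS haA
      rw [hS, Finset.mem_sdiff, Finset.mem_filter] at haS
      exact haS.2 (Finset.mem_filter.2 ⟨haA, haS.1.2⟩)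
    have hφS : ∑ a ∈ S, φ a ^ 2 ≤ θ ^ 2 := hA1 S hSdisj
    have hfS : ∑ a ∈ S, f a ^ 2 ≤ ((M : ℝ) + 1) * ‖x‖ ^ 2 := by
      apply sum_sq_apply_single_le x M S
      intro a ha
      rw [hS, Finset.mem_sdiff, Finset.mem_filter] at ha
      exact ha.1.2.le
    have hCS : |∑ a ∈ S, f a * φ a| ≤ η / 2 * ‖x‖ := by
      have h1 := Finset.sum_mul_sq_le_sq_mul_sq S f φ
      have h2 : (∑ a ∈ S, f a * φ a) ^ 2 ≤ (η / 2 * ‖x‖) ^ 2 := by
        calc (∑ a ∈ S, f a * φ a) ^ 2 ≤ (∑ a ∈ S, f a ^ 2) * ∑ a ∈ S, φ a ^ 2 := h1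
          _ ≤ (((M : ℝ) + 1) * ‖x‖ ^ 2) * θ ^ 2 := by
            apply mul_le_mul hfS hφS (Finset.sum_nonneg (fun a _ => sq_nonneg _)) (by positivity)
          _ = (η / 2 * ‖x‖) ^ 2 := by
            rw [hθ, div_pow, mul_pow, Real.sq_sqrt hM1.le]
            field_simp
      exact abs_le_of_sq_le_sq h2 (by positivity)
    have hΦ12 : |Φ (x1 - x2)| ≤ ‖Φ‖ * θ' := by
      have := Φ.le_opNorm (x1 - x2)
      rw [Real.norm_eq_abs] at this
      exact this.trans (mul_le_mul_of_nonneg_left hsmall (norm_nonneg _))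
    have hdecomp : Φ x - x (∑ a ∈ B, φ a • u a)
        = Φ x0 + Φ (x1 - x2) + (Φ x2 - x (∑ a ∈ B, φ a • u a)) := by
      have e4 : Φ x = Φ x1 + Φ x0 := by rw [← map_add, ← hsplit]
      rw [e4, map_sub]
      ring
    rw [hdecomp, hdiff]
    calc |Φ x0 + Φ (x1 - x2) + ∑ a ∈ S, f a * φ a|
        ≤ |Φ x0| + |Φ (x1 - x2)| + |∑ a ∈ S, f a * φ a| := abs_add_three _ _ _
      _ ≤ η / 2 * ‖x‖ + ‖Φ‖ * θ' + η / 2 * ‖x‖ := by gcongr
      _ = η * ‖x‖ + ‖Φ‖ * θ' := by ring
  apply le_of_forall_pos_le_add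
  intro ε hε
  have hΦ1 : 0 < ‖Φ‖ + 1 := by positivity
  have := hmain (ε / (‖Φ‖ + 1)) (by positivity)
  refine this.trans ?_
  have h3 : ‖Φ‖ * (ε / (‖Φ‖ + 1)) ≤ ε := by
    rw [mul_div_assoc', div_le_iff₀ hΦ1]
    nlinarith [norm_nonneg Φ]
  linarith

theorem reflexive_dualJT : IsReflexiveSpace (StrongDual ℝ JT) :=
  reflexive_dual_of_dense dense_in_bidual

end Vale.Agent.P069
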