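import Vale.Agent.P069.Space

namespace Vale.Agent.P069

open Classical in
/-- restriction of a finitely supported function to the nodes satisfying `P` -/
noncomputable def resLin (P : Nd → Prop) : JT →ₗ[ℝ] JT where
  toFun g := ofFs ((toFs g).filter P)
  map_add' g h := by
    rw [map_add, Finsupp.filter_add, map_add]
  map_smul' r g := by
    rw [map_smul, Finsupp.filter_smul, map_smul, RingHom.id_apply]

open Classical in
theorem toFs_resLin (P : Nd → Prop) (g : JT) (a : Nd) :
    toFs (resLin P g) a = if P a then toFs g a else 0 := rfl

/-- a contractive restriction as a continuous linear map -/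
noncomputable def resC (P : Nd → Prop) (hP : ∀ g : JT, ‖resLin P g‖ ≤ ‖g‖) : JT →L[ℝ] JT :=
  (resLin P).mkContinuous 1 (fun g => by simpa using hP g)

@[simp] theorem resC_apply (P : Nd → Prop) (hP : ∀ g : JT, ‖resLin P g‖ ≤ ‖g‖) (g : JT) :
    resC P hP g = resLin P g := rfl

/-- a finite set of nodes closed under taking predecessors -/
def DownClosed (A : Finset Nd) : Prop := ∀ n m m' l, (n, m, m' :: l) ∈ A → (n, m', l) ∈ A

/-- the largest vertex below `l` which is a root or the top of a node of `A` -/
def lastA (A : Finset Nd) (n : ℕ) : List ℕ → List ℕ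
  | [] => []
  | m :: l => if (n, m, l) ∈ A then m :: l else lastA A n l

/-- the vertex is a root or the top of a node of `A` -/
def InBar (A : Finset Nd) (n : ℕ) : List ℕ → Prop
  | [] => True
  | m :: l => (n, m, l) ∈ A

/-- the point where the segment `(b, q]` leaves `A` -/
def cut (A : Finset Nd) (n : ℕ) (b q : List ℕ) : List ℕ :=
  if (lastA A n q).length ≤ b.length then b else lastA A n q

end Vale.Agent.P069
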