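import Vale.Agent.P069.ResDef

namespace Vale.Agent.P069

theorem lastA_suffix (A : Finset Nd) (n : ℕ) (l : List ℕ) : lastA A n l <:+ l := by
  induction l with
  | nil => exact List.suffix_refl _
  | cons m l ih =>
    unfold lastA
    split_ifs with h
    · exact List.suffix_refl _
    · exact ih.trans (List.suffix_cons _ _)

theorem inBar_lastA (A : Finset Nd) (n : ℕ) (l : List ℕ) : InBar A n (lastA A n l) := by
  induction l with
  | nil => trivial
  | cons m l ih =>
    unfold lastA
    split_ifs with h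
    · exact h
    · exact ih

theorem lastA_of_inBar {A : Finset Nd} {n : ℕ} {v : List ℕ} (h : InBar A n v) :
    lastA A n v = v := by
  cases v with
  | nil => rfl
  | cons m l =>
    unfold lastA
    exact if_pos h

theorem suffix_lastA {A : Finset Nd} {n : ℕ} {x w : List ℕ} (hx : InBar A n x) (hxw : x <:+ w) :
    x <:+ lastA A n w := by
  induction w with
  | nil => simpa [lastA] using hxw
  | cons m l ih =>
    unfold lastA
    split_ifs with h
    · exact hxw
    · rcases List.suffix_cons_iff.mp hxw with h1 | h1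
      · subst h1
        exact absurd hx h
      · exact ih h1

theorem InBar.of_suffix {A : Finset Nd} (hA : DownClosed A) {n : ℕ} {b q : List ℕ}
    (hq : InBar A n q) (hb : b <:+ q) : InBar A n b := by
  induction q with
  | nil =>
    have : b = [] := List.suffix_nil.mp hb
    subst this
    trivial
  | cons m l ih =>
    rcases List.suffix_cons_iff.mp hb with h1 | h1
    · subst h1
      exact hq
    · apply ih _ h1
      cases l with
      | nil => trivial
      | cons m' l' => exact hA n m m' l' hq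

theorem lastA_eq_of_suffix {A : Finset Nd} {n : ℕ} {b q : List ℕ} (hbq : b <:+ q)
    (h : lastA A n q <:+ b) : lastA A n b = lastA A n q := by
  have h1 : lastA A n q <:+ lastA A n b := suffix_lastA (inBar_lastA A n q) h
  have h2 : lastA A n b <:+ lastA A n q :=
    suffix_lastA (inBar_lastA A n b) ((lastA_suffix A n b).trans hbq)
  exact h2.eq_of_length_le h1.length_le

theorem pot_lastA {A : Finset Nd} {g : Nd → ℝ} (hg : ∀ a, a ∉ A → g a = 0) (n : ℕ) (q : List ℕ) :
    pot g n (lastA A n q) = pot g n q := by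
  induction q with
  | nil => rfl
  | cons m l ih =>
    unfold lastA
    split_ifs with h
    · rfl
    · rw [ih, pot_cons, hg _ h, zero_add]

theorem pot_of_inBar {A : Finset Nd} (hA : DownClosed A) {h : Nd → ℝ} (hh : ∀ a ∈ A, h a = 0)
    {n : ℕ} {v : List ℕ} (hv : InBar A n v) : pot h n v = 0 := by
  induction v with
  | nil => rfl
  | cons m l ih =>
    rw [pot_cons, hh _ hv, zero_add]
    exact ih (InBar.of_suffix hA hv (List.suffix_cons _ _))

theorem suffix_cut (A : Finset Nd) (n : ℕ) {b q : List ℕ} (hbq : b <:+ q) :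
    b <:+ cut A n b q := by
  unfold cut
  split_ifs with h
  · exact List.suffix_refl _
  · exact List.suffix_of_suffix_length_le hbq (lastA_suffix A n q) (by omega)

theorem cut_suffix (A : Finset Nd) (n : ℕ) {b q : List ℕ} (hbq : b <:+ q) :
    cut A n b q <:+ q := by
  unfold cut
  split_ifs with h
  · exact hbq
  · exact lastA_suffix A n q

theorem cut_cases {A : Finset Nd} (hA : DownClosed A) (n : ℕ) {b q : List ℕ} (hbq : b <:+ q) :
    (cut A n b q = b ∧ lastA A n b = lastA A n q) ∨
    (cut A n b q = lastA A n q ∧ InBar A n b ∧ b.length < (lastA A n q).length) := by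
  unfold cut
  split_ifs with h
  · left
    refine ⟨rfl, lastA_eq_of_suffix hbq ?_⟩
    exact List.suffix_of_suffix_length_le (lastA_suffix A n q) hbq h
  · right
    refine ⟨rfl, ?_, by omega⟩
    apply InBar.of_suffix hA (inBar_lastA A n q)
    exact List.suffix_of_suffix_length_le hbq (lastA_suffix A n q) (by omega)

theorem pot_cut_of_in {A : Finset Nd} {g : Nd → ℝ} (hg : ∀ a, a ∉ A → g a = 0) (n : ℕ)
    {b q : List ℕ} (hbq : b <:+ q) : pot g n (cut A n b q) = pot g n q := by
  unfold cut
  split_ifs with h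
  · have h1 : lastA A n q <:+ b :=
      List.suffix_of_suffix_length_le (lastA_suffix A n q) hbq h
    rw [← pot_lastA hg n b, ← pot_lastA hg n q, lastA_eq_of_suffix hbq h1]
  · exact pot_lastA hg n q

theorem pot_cut_of_out {A : Finset Nd} (hA : DownClosed A) {h : Nd → ℝ} (hh : ∀ a ∈ A, h a = 0)
    (n : ℕ) {b q : List ℕ} (hbq : b <:+ q) : pot h n (cut A n b q) = pot h n b := by
  rcases cut_cases hA n hbq with ⟨h1, _⟩ | ⟨h1, h2, _⟩
  · rw [h1]
  · rw [h1, pot_of_inBar hA hh (inBar_lastA A n q), pot_of_inBar hA hh h2]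

theorem resLin_add_resLin_not (P : Nd → Prop) (g : JT) :
    resLin P g + resLin (fun a => ¬ P a) g = g := by
  classical
  apply toFs.injective
  ext a
  rw [map_add, Finsupp.add_apply, toFs_resLin, toFs_resLin]
  by_cases h : P a <;> simp [h]

theorem pot_toFs_split (P : Nd → Prop) (g : JT) (n : ℕ) (l : List ℕ) :
    pot (toFs g) n l = pot (toFs (resLin P g)) n l + pot (toFs (resLin (fun a => ¬ P a) g)) n l := by
  rw [← pot_add]
  congr 1
  rw [← Finsupp.coe_add, ← map_add, resLin_add_resLin_not]

theorem norm_resLin_mem_le {A : Finset Nd} (hA : DownClosed A) (g : JT) :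
    ‖resLin (fun a => a ∈ A) g‖ ≤ ‖g‖ := by
  classical
  apply norm_le_of_JTBound (norm_nonneg _)
  intro ι _ n b q hF
  have hin : ∀ a, a ∉ A → toFs (resLin (fun a => a ∈ A) g) a = 0 := by
    intro a ha
    rw [toFs_resLin, if_neg ha]
  have hout : ∀ a ∈ A, toFs (resLin (fun a => ¬ a ∈ A) g) a = 0 := by
    intro a ha
    rw [toFs_resLin, if_neg (not_not.mpr ha)]
  have hsub : IsFam n b (fun i => cut A (n i) (b i) (q i)) :=
    hF.sub (fun i => List.suffix_refl _) (fun i => suffix_cut A (n i) (hF.suff i))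
      (fun i => cut_suffix A (n i) (hF.suff i))
  have key := JTBound_norm g ι n b _ hsub
  refine le_trans (le_of_eq ?_) key
  apply Finset.sum_congr rfl
  intro i _
  congr 1
  rw [pot_toFs_split (fun a => a ∈ A) g (n i) (cut A (n i) (b i) (q i)),
    pot_toFs_split (fun a => a ∈ A) g (n i) (b i),
    pot_cut_of_in hin (n i) (hF.suff i), pot_cut_of_out hA hout (n i) (hF.suff i)]
  ring

theorem norm_resLin_not_mem_le {A : Finset Nd} (hA : DownClosed A) (g : JT) :
    ‖resLin (fun a => a ∉ A) g‖ ≤ ‖g‖ := by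
  classical
  apply norm_le_of_JTBound (norm_nonneg _)
  intro ι _ n b q hF
  have hin : ∀ a, a ∉ A → toFs (resLin (fun a => a ∈ A) g) a = 0 := by
    intro a ha
    rw [toFs_resLin, if_neg ha]
  have hout : ∀ a ∈ A, toFs (resLin (fun a => ¬ a ∈ A) g) a = 0 := by
    intro a ha
    rw [toFs_resLin, if_neg (not_not.mpr ha)]
  have hsub : IsFam n (fun i => cut A (n i) (b i) (q i)) q :=
    hF.sub (fun i => suffix_cut A (n i) (hF.suff i))
      (fun i => cut_suffix A (n i) (hF.suff i)) (fun i => List.suffix_refl _)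
  have key := JTBound_norm g ι n _ q hsub
  refine le_trans (le_of_eq ?_) key
  apply Finset.sum_congr rfl
  intro i _
  congr 1
  rw [pot_toFs_split (fun a => a ∈ A) g (n i) (cut A (n i) (b i) (q i)),
    pot_toFs_split (fun a => a ∈ A) g (n i) (q i),
    pot_cut_of_in hin (n i) (hF.suff i), pot_cut_of_out hA hout (n i) (hF.suff i)]
  ring

def downSet (n : ℕ) : List ℕ → Finset Nd
  | [] => ∅
  | m :: l => insert (n, m, l) (downSet n l)

theorem mem_downSet {n n' m : ℕ} {l q : List ℕ} :
    (n', m, l) ∈ downSet n q ↔ n' = n ∧ (m :: l) <:+ q := by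
  induction q with
  | nil => simp [downSet]
  | cons m' l' ih =>
    simp only [downSet, Finset.mem_insert, Prod.mk.injEq, ih, List.suffix_cons_iff,
      List.cons.injEq]
    tauto

theorem exists_downClosed_superset (A₀ : Finset Nd) : ∃ A : Finset Nd, A₀ ⊆ A ∧ DownClosed A := by
  classical
  refine ⟨A₀.biUnion (fun a => downSet a.1 (a.2.1 :: a.2.2)), ?_, ?_⟩
  · intro a ha
    rw [Finset.mem_biUnion]
    refine ⟨a, ha, ?_⟩
    obtain ⟨n, m, l⟩ := a
    exact mem_downSet.mpr ⟨rfl, List.suffix_refl _⟩
  · intro n m m' l h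
    rw [Finset.mem_biUnion] at h ⊢
    obtain ⟨a, ha, h1⟩ := h
    refine ⟨a, ha, ?_⟩
    rw [mem_downSet] at h1 ⊢
    exact ⟨h1.1, (List.suffix_cons _ _).trans h1.2⟩

end Vale.Agent.P069
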