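import Vale.Agent.P069.Core

namespace Vale.Agent.P069

open Finset

/-- the James tree norm of a finitely supported function on the nodes -/
noncomputable def jtNorm (g : Nd →₀ ℝ) : ℝ := sInf {c : ℝ | 0 ≤ c ∧ JTBound g c}

theorem jtNorm_nonneg (g : Nd →₀ ℝ) : 0 ≤ jtNorm g := by
  obtain ⟨c, hc, hb⟩ := exists_JTBound g
  exact le_csInf ⟨c, hc, hb⟩ fun d hd => hd.1

theorem jtNorm_le {g : Nd →₀ ℝ} {c : ℝ} (hc : 0 ≤ c) (h : JTBound g c) : jtNorm g ≤ c :=
  csInf_le ⟨0, fun _ hd => hd.1⟩ ⟨hc, h⟩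

theorem JTBound_jtNorm (g : Nd →₀ ℝ) : JTBound g (jtNorm g) := by
  intro ι _ n b q hF
  obtain ⟨c, hc, hb⟩ := exists_JTBound g
  have h1 : Real.sqrt (∑ i, (pot g (n i) (q i) - pot g (n i) (b i)) ^ 2) ≤ jtNorm g := by
    refine le_csInf (s := {c : ℝ | 0 ≤ c ∧ JTBound g c}) ⟨c, hc, hb⟩ ?_
    intro d hd
    exact Real.sqrt_le_iff.mpr ⟨hd.1, hd.2 ι n b q hF⟩
  exact (Real.sqrt_le_iff.mp h1).2

/-- finitely supported functions on the nodes, with the James tree norm -/
def JT : Type := Nd →₀ ℝ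

noncomputable instance : AddCommGroup JT := inferInstanceAs (AddCommGroup (Nd →₀ ℝ))

noncomputable instance : Module ℝ JT := inferInstanceAs (Module ℝ (Nd →₀ ℝ))

/-- the identity map, as a linear equivalence -/
noncomputable def toFs : JT ≃ₗ[ℝ] (Nd →₀ ℝ) := LinearEquiv.refl ℝ (Nd →₀ ℝ)

/-- the identity map, as a linear equivalence -/
noncomputable def ofFs : (Nd →₀ ℝ) ≃ₗ[ℝ] JT := LinearEquiv.refl ℝ (Nd →₀ ℝ)

@[simp] theorem toFs_ofFs (g : Nd →₀ ℝ) : toFs (ofFs g) = g := rfl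

@[simp] theorem ofFs_toFs (g : JT) : ofFs (toFs g) = g := rfl

noncomputable def jtAddGroupNorm : AddGroupNorm JT where
  toFun g := jtNorm (toFs g)
  map_zero' := by
    apply le_antisymm _ (jtNorm_nonneg _)
    apply jtNorm_le le_rfl
    intro ι _ n b q _
    simp [pot_zero]
  add_le' g h := by
    apply jtNorm_le (add_nonneg (jtNorm_nonneg _) (jtNorm_nonneg _))
    have := (JTBound_jtNorm (toFs g)).add (JTBound_jtNorm (toFs h)) (jtNorm_nonneg _)
      (jtNorm_nonneg _)
    rw [map_add, Finsupp.coe_add]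
    exact this
  neg' g := by
    have key : ∀ g : Nd →₀ ℝ, jtNorm (-g) ≤ jtNorm g := by
      intro g
      apply jtNorm_le (jtNorm_nonneg _)
      have := (JTBound_jtNorm g).smul (-1)
      simpa using this
    apply le_antisymm
    · rw [map_neg]; exact key _
    · have := key (- toFs g)
      rw [neg_neg] at this
      rw [map_neg]; exact this
  eq_zero_of_map_eq_zero' g hg := by
    have h1 := JTBound_jtNorm (toFs g)
    rw [hg] at h1
    apply toFs.injective
    rw [map_zero]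
    ext a
    have := h1.sum_sq_le {a}
    simp only [sum_singleton, ne_eq, OfNat.ofNat_ne_zero, not_false_eq_true, zero_pow] at this
    simpa using pow_eq_zero_iff (n := 2) (by norm_num) |>.mp (le_antisymm this (sq_nonneg _))

noncomputable instance : NormedAddCommGroup JT := AddGroupNorm.toNormedAddCommGroup jtAddGroupNorm

theorem norm_def (g : JT) : ‖g‖ = jtNorm (toFs g) := rfl

noncomputable instance : NormedSpace ℝ JT where
  norm_smul_le r g := by
    rw [norm_def, norm_def, Real.norm_eq_abs]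
    apply jtNorm_le (mul_nonneg (abs_nonneg _) (jtNorm_nonneg _))
    have := (JTBound_jtNorm (toFs g)).smul r
    rw [map_smul, Finsupp.coe_smul]
    exact this

theorem JTBound_norm (g : JT) : JTBound (toFs g) ‖g‖ := JTBound_jtNorm _

theorem norm_le_of_JTBound {g : JT} {c : ℝ} (hc : 0 ≤ c) (h : JTBound (toFs g) c) : ‖g‖ ≤ c :=
  jtNorm_le hc h

theorem norm_ofFs_le {g : Nd →₀ ℝ} {c : ℝ} (hc : 0 ≤ c) (h : JTBound g c) : ‖ofFs g‖ ≤ c :=
  jtNorm_le hc h

theorem JTBound_of_norm_le {g : JT} {c : ℝ} (h : ‖g‖ ≤ c) : JTBound (toFs g) c :=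
  (JTBound_norm g).mono (norm_nonneg _) h

end Vale.Agent.P069
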